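import Vale.Agent.P265.S.Dd

/-! P265 S/Equi (TASK). Helper lemma names start with equi_.
Equivariance and the ends of the time interval.
th_act: xi_act, nv_smul. DD_act: om4_ext, write v = lin m n (lin (-m) n v) (lin_lin), om4_lin, om4_DD.
AA_act, BB_act: act_add_lin, linL (map_smul, map_neg), hG.inv, rot_smul. hh_act: (1, 0) = (1, lin m n 0).
lo, hi: xi_lo, xi_hi, hG.start, hG.stop, rot_one. UU (τ, TT .. c z) = (τ, TT .. c (UU (τ, z)).2) by hG.inv and rot_smul. -/

namespace Vale.Agent.P265.S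

open scoped ContDiff Quaternion Topology
open Set Filter

noncomputable section

variable {G : W5 → ℍ} {ε : ℝ}

theorem equi_th (hG : IsPath G) (τ t : ℝ) (z : E7) (v : R4) (m n a b : ℤ) {c : ℝ} (hc : 0 < c) :
    th G (t, lin m n v) (τ, TT m n a b c z) = th G (t, v) (τ, z) := by
  simp only [th, pr, TT, xi_act hG, nv_smul hc]

theorem equi_G (hG : IsPath G) (τ : ℝ) (z : E7) (m n a b : ℤ) (c : ℝ) :
    G (pr (τ, TT m n a b c z)) = G (pr (τ, z)) := hG.inv τ z.1 _ ⟨m, n, a, b, rfl⟩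

theorem equi_act (m n a b : ℤ) (u v : R4) (e : ℝ) :
    act m n a b (u + e • v) = act m n a b u + e • lin m n v := by
  rw [act_add_lin, ← linL_apply, map_smul, linL_apply]

theorem equi_lo (hG : IsPath G) {τ : ℝ} (h : τ < 1 / 10) (z : E7) (l : W5) :
    th G l (τ, z) = 0 := by
  simp [th, pr, xi_lo hG h, dot]

theorem equi_hi (hG : IsPath G) {τ : ℝ} (h : 9 / 10 < τ) (z : E7) :
    DD G (τ, z) = DD G (1, z) := by
  simp only [DD, th, pr, xi_hi hG h]

theorem DD_act (hG : IsPath G) (τ : ℝ) (z : E7) (m n a b : ℤ) {c : ℝ} (hc : 0 < c) :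
    DD G (τ, TT m n a b c z) = lin m n (DD G (τ, z)) := by
  refine om4_ext fun v => ?_
  rw [← lin_lin m n v, om4_lin, om4_DD, om4_DD, equi_th hG τ 0 z _ m n a b hc]

theorem AA_act (hG : IsPath G) (τ : ℝ) (z : E7) (m n a b : ℤ) {c : ℝ} (hc : 0 < c) :
    AA G ε (τ, TT m n a b c z) = TT m n a b c (AA G ε (τ, z)) := by
  simp only [AA, DD_act hG τ z m n a b hc, sub_eq_add_neg, ← neg_smul]
  exact Prod.ext (equi_act m n a b _ _ _).symm rfl

theorem BB_act (hG : IsPath G) (τ : ℝ) (z : E7) (m n a b : ℤ) {c : ℝ} (hc : 0 < c) :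
    BB G ε (τ, TT m n a b c z) = TT m n a b c (BB G ε (τ, z)) := by
  simp only [BB, RR, DD_act hG τ z m n a b hc, equi_G hG]
  exact Prod.ext (equi_act m n a b _ _ _).symm (rot_smul _ _ _)

theorem hh_act (hG : IsPath G) (τ : ℝ) (z : E7) (m n a b : ℤ) {c : ℝ} (hc : 0 < c) :
    hh G (τ, TT m n a b c z) = hh G (τ, z) := by
  have e : lin m n 0 = 0 := (linL m n).map_zero
  have h := equi_th hG τ 1 z 0 m n a b hc
  rw [e] at h
  simp only [hh, h]

theorem DD_lo (hG : IsPath G) {τ : ℝ} (h : τ < 1 / 10) (z : E7) : DD G (τ, z) = 0 := by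
  simp only [DD, equi_lo hG h, neg_zero]
  rfl

theorem AA_zero (hG : IsPath G) (z : E7) : AA G ε (0, z) = z := by
  simp [AA, DD_lo hG (τ := 0) (by norm_num)]

theorem BB_zero (hG : IsPath G) (z : E7) : BB G ε (0, z) = z := by
  have e : G (pr (0, z)) = 1 := hG.start 0 z.1 (by norm_num)
  simp [BB, RR, DD_lo hG (τ := 0) (by norm_num), e, rot_one]

theorem hh_end (hG : IsPath G) {w : W8} (h : w.1 < 1 / 10 ∨ 9 / 10 < w.1) : hh G w = 0 := by
  obtain ⟨τ, z⟩ := w
  rcases h with h | h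
  · simp only [hh, equi_lo hG h, mul_zero]
  · have e : xi G (1, z.1) (0, 0) = 0 := by
      have h1 := xi_smul (G := G) (1, z.1) 0 0
      rwa [zero_smul, zero_smul] at h1
    simp only [hh, th, pr, xi_hi hG h, e]
    simp [dot]

theorem eqv_DD (hG : IsPath G) : Eqv (DD G) := by
  refine ⟨fun w hw => (contDiffAt_DD hG hw).contDiffWithinAt,
    fun τ z m n a b c _ hc => DD_act hG τ z m n a b hc, fun τ z h => ?_,
    fun τ z h => equi_hi hG (by linarith) z⟩
  rw [DD_lo hG (by linarith), DD_lo hG (by norm_num)]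

theorem eqv_DU (hG : IsPath G) : Eqv fun w => DD G (UU G w) := by
  refine ⟨fun w hw => ((contDiffAt_DD hG (w := UU G w) (rot_star_ne (hG.unit _) hw)).comp w
    (contDiff_UU hG).contDiffAt).contDiffWithinAt, fun τ z m n a b c _ hc => ?_, fun τ z h => ?_,
    fun τ z h => ?_⟩
  · have e : UU G (τ, TT m n a b c z) = (τ, TT m n a b c (UU G (τ, z)).2) := by
      simp only [UU, equi_G hG]
      exact Prod.ext rfl (Prod.ext rfl (rot_smul _ _ _))
    simp only [e]
    exact DD_act hG τ _ m n a b hc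
  · exact (DD_lo hG (τ := τ) (by linarith) _).trans (DD_lo hG (τ := 0) (by norm_num) _).symm
  · have e : G (pr (τ, z)) = G (pr (1, z)) := hG.stop τ z.1 (by linarith)
    simp only [UU, e]
    exact equi_hi hG (by linarith) _

end

end Vale.Agent.P265.S
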