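import Vale.Agent.P265.S.Ident
import Vale.Agent.P265.S.Equi

/-! P265 S/Ode (TASK). Helper lemma names start with ode_.
ode: p = Ai (τ, z) ∈ Om, l1 = fderiv Ai (τ, z) (1, 0), l2 = fderiv Bi (τ, BB p) (0, b), Bi (τ, BB p) = p (Bl, A1).
Differentiate the identities (Ai w).1 = w.1, (Bi w).1 = w.1, AA (Ai w) = w.2, BB (Bi w) = w.2 (the last two near points of Om, `Filter.EventuallyEq.fderiv_eq`,
`fderiv_comp`): l1.1 = 1, l2.1 = 0, dAA l1 = 0, dBB l2 = b. Then ident, om7 c z 0 v = 0.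
Ai_act: with p = Ai (τ, z), z = AA p, TT z = AA (τ, TT p.2) (AA_act), Al. Same for Bi. -/

namespace Vale.Agent.P265.S

open scoped ContDiff Quaternion Topology
open Set Filter

noncomputable section

variable {G : W5 → ℍ} {ε : ℝ} {Ai Bi : W8 → W8}

theorem Pack.A_mem (P : Pack G ε Ai Bi) {w : W8} (hw : w ∈ Om) : Ai w ∈ Om := by
  change (Ai w).2.2 ≠ 0
  rw [P.A2]
  exact hw

theorem BB_mem (hG : IsPath G) {w : W8} (hw : w ∈ Om) : (BB G ε w).2 ≠ 0 := by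
  exact rot_ne (hG.unit _) hw

theorem ode_comp {F : Type} [NormedAddCommGroup F] [NormedSpace ℝ F] {f : W8 → F} {g : W8 → W8}
    {w : W8} (hf : DifferentiableAt ℝ f (g w)) (hg : DifferentiableAt ℝ g w) (l : W8) :
    fderiv ℝ (fun x => f (g x)) w l = fderiv ℝ f (g w) (fderiv ℝ g w l) := by
  rw [fderiv_fun_comp w hf hg]
  rfl

theorem ode_fst {g : W8 → W8} {w : W8} (hg : DifferentiableAt ℝ g w) (h : ∀ x, (g x).1 = x.1)
    (l : W8) : (fderiv ℝ g w l).1 = l.1 := by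
  have := ode_comp (f := fun x : W8 => x.1) differentiableAt_fst hg l
  simp only [h, fderiv_fst] at this
  exact this.symm

theorem ode_snd {f : W8 → E7} {g : W8 → W8} {w : W8} (hw : w ∈ Om)
    (hf : DifferentiableAt ℝ f (g w)) (hg : DifferentiableAt ℝ g w)
    (h : ∀ x ∈ Om, f (g x) = x.2) (l : W8) : fderiv ℝ f (g w) (fderiv ℝ g w l) = l.2 := by
  have e : (fun x => f (g x)) =ᶠ[𝓝 w] fun x : W8 => x.2 :=
    Filter.eventually_of_mem (Om_nhds hw) h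
  rw [← ode_comp hf hg, e.fderiv_eq, fderiv_snd]
  rfl

theorem Pack.ode (P : Pack G ε Ai Bi) (hG : IsPath G) (τ : ℝ) {z : E7} (hz : z.2 ≠ 0) (b : E7) :
    om7 ε⁻¹ (BB G ε (Ai (τ, z))) (fderiv ℝ (fun w => BB G ε (Ai w)) (τ, z) (1, 0)) b =
      fderiv ℝ (fun w => hh G (Bi w)) (τ, BB G ε (Ai (τ, z))) (0, b) := by
  have h0 : ((τ, z) : W8) ∈ Om := hz
  have hp := P.A_mem h0
  have h1 : ((τ, BB G ε (Ai (τ, z))) : W8) ∈ Om := BB_mem hG hp
  have e : Bi (τ, BB G ε (Ai (τ, z))) = Ai (τ, z) := by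
    have := P.Bl _ hp
    rwa [P.A1] at this
  have dA : DifferentiableAt ℝ Ai (τ, z) :=
    (P.sA.contDiffAt (Om_nhds h0)).differentiableAt (by simp)
  have dB : DifferentiableAt ℝ Bi (τ, BB G ε (Ai (τ, z))) :=
    (P.sB.contDiffAt (Om_nhds h1)).differentiableAt (by simp)
  have dAA : DifferentiableAt ℝ (AA G ε) (Ai (τ, z)) :=
    (contDiffAt_AA hG hp).differentiableAt (by simp)
  have dBB : DifferentiableAt ℝ (BB G ε) (Ai (τ, z)) :=
    (contDiffAt_BB hG hp).differentiableAt (by simp)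
  have dh : DifferentiableAt ℝ (hh G) (Ai (τ, z)) :=
    (contDiffAt_hh hG hp).differentiableAt (by simp)
  have a1 := ode_fst dA P.A1 (1, 0)
  have a2 := ode_fst dB P.B1 (0, b)
  have a3 := ode_snd h0 dAA dA P.Ar (1, 0)
  have a4 := ode_snd (f := BB G ε) h1 (by rwa [e]) dB P.Br (0, b)
  rw [e] at a4
  have := ident hG P.pos.ne' hp (fderiv ℝ Ai (τ, z) (1, 0))
    (fderiv ℝ Bi (τ, BB G ε (Ai (τ, z))) (0, b))
  rw [a1, a2, a3, a4] at this
  rw [ode_comp dBB dA, ode_comp (f := hh G) (by rwa [e]) dB, e]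
  simpa [om7, om4, dot, cross] using this

theorem Pack.Ai_act (P : Pack G ε Ai Bi) (hG : IsPath G) (τ : ℝ) {z : E7} (hz : z.2 ≠ 0)
    (m n a b : ℤ) {c : ℝ} (hc : 0 < c) :
    Ai (τ, TT m n a b c z) = (τ, TT m n a b c (Ai (τ, z)).2) := by
  have h0 : ((τ, z) : W8) ∈ Om := hz
  have e : Ai (τ, z) = (τ, (Ai (τ, z)).2) := Prod.ext (P.A1 _) rfl
  have := P.Al (τ, TT m n a b c (Ai (τ, z)).2) (TT_ne (P.A_mem h0) m n a b hc)
  rwa [AA_act hG _ _ _ _ _ _ hc, ← e, P.Ar _ h0] at this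

theorem Pack.Bi_act (P : Pack G ε Ai Bi) (hG : IsPath G) (τ : ℝ) {z : E7} (hz : z.2 ≠ 0)
    (m n a b : ℤ) {c : ℝ} (hc : 0 < c) :
    Bi (τ, TT m n a b c z) = (τ, TT m n a b c (Bi (τ, z)).2) := by
  have h0 : ((τ, z) : W8) ∈ Om := hz
  have e : Bi (τ, z) = (τ, (Bi (τ, z)).2) := Prod.ext (P.B1 _) rfl
  have := P.Bl (τ, TT m n a b c (Bi (τ, z)).2) (TT_ne (P.B2 _ h0) m n a b hc)
  rwa [BB_act hG _ _ _ _ _ _ hc, ← e, P.Br _ h0] at this

end

end Vale.Agent.P265.S
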