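import Vale.Agent.P265.S.Crit
import Vale.Agent.P265.S.Ode

/-! P265 S/Fix (TASK). Helper lemma names start with fix_.
S = image of (u ↦ (u, V u)) ∪ image of (u ↦ (u, - V u)) of the set from hG.crit (classical; `Finset.card_union_le`, `Finset.card_image_le`).
p = Ai (1, z) = (1, u, y), AA p = z (Ar); rig gives DD p = 0, so z = (u, y); rot_scal gives rot g y = y and BB p = z. crit_pt, hG.crit, hG.inv; scaling |c|⁻¹.
Nondegeneracy: l = fderiv Ai (1, z) (0, v) has l.1 = 0, dAA p l = v, and fderiv (BB ∘ Ai) (1, z) (0, v) = dBB p l (as in Ode); fderiv_AA, fderiv_BB;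
the first components give 2 ε • dDD l = 0; crit_nd. -/

namespace Vale.Agent.P265.S

open scoped ContDiff Quaternion Topology
open Set Filter

noncomputable section

variable {G : W5 → ℍ} {ε : ℝ} {Ai Bi : W8 → W8}

theorem fix_fst {I : W8 → W8} (h : ∀ w, (I w).1 = w.1) {w : W8} (hI : DifferentiableAt ℝ I w)
    (l : W8) : (fderiv ℝ I w l).1 = l.1 := by
  have h1 : HasFDerivAt (fun w => (I w).1) _ w := hI.hasFDerivAt.fst
  rw [funext h] at h1
  exact congrArg (fun L : W8 →L[ℝ] ℝ => L l) (h1.unique hasFDerivAt_fst)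

theorem fix_comp {B : Type} [NormedAddCommGroup B] [NormedSpace ℝ B] {F : W8 → B} {I : W8 → W8}
    {w : W8} (hF : DifferentiableAt ℝ F (I w)) (hI : DifferentiableAt ℝ I w) (l : W8) :
    fderiv ℝ (fun w => F (I w)) w l = fderiv ℝ F (I w) (fderiv ℝ I w l) :=
  congrArg (fun L : W8 →L[ℝ] B => L l) (hF.hasFDerivAt.comp w hI.hasFDerivAt).fderiv

theorem fix_snd {F : W8 → E7} {I : W8 → W8} (h : ∀ w ∈ Om, F (I w) = w.2) {w : W8} (hw : w ∈ Om)
    (hF : DifferentiableAt ℝ F (I w)) (hI : DifferentiableAt ℝ I w) (l : W8) :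
    fderiv ℝ F (I w) (fderiv ℝ I w l) = l.2 := by
  have h1 : (fun w => F (I w)) =ᶠ[𝓝 w] Prod.snd := by
    filter_upwards [Om_nhds hw] with w' hw'
    exact h w' hw'
  rw [← fix_comp hF hI, h1.fderiv_eq, fderiv_snd]
  rfl

theorem Pack.fix (P : Pack G ε Ai Bi) (hG : IsPath G) :
    ∃ S : Finset E7, S.card ≤ 16 ∧ ∀ z : E7, z.2 ≠ 0 → Rel7 z (BB G ε (Ai (1, z))) →
      (∃ z' ∈ S, Rel7 z z') ∧ BB G ε (Ai (1, z)) = z ∧ ∀ (v : E7) (r : ℝ),
        fderiv ℝ (fun w => BB G ε (Ai w)) (1, z) (0, v) = v + (0, r • z.2) →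
          ∃ r' : ℝ, v = (0, r' • z.2) := by
  classical
  obtain ⟨S8, hS, hc⟩ := hG.crit
  refine ⟨S8.image (fun u => (u, imv (G (1, u)))) ∪ S8.image fun u => (u, -imv (G (1, u))),
    (Finset.card_union_le _ _).trans ?_, ?_⟩
  · have h1 := Finset.card_image_le (s := S8) (f := fun u => ((u, imv (G (1, u))) : E7))
    have h2 := Finset.card_image_le (s := S8) (f := fun u => ((u, -imv (G (1, u))) : E7))
    omega
  rintro ⟨u, y⟩ hy hR
  change y ≠ 0 at hy
  have hw : ((1 : ℝ), u, y) ∈ Om := hy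
  have hp := P.A_mem hw
  have hA := P.Ar _ hw
  have hD : DD G (Ai (1, u, y)) = 0 := P.rig _ hp (by rw [hA]; exact hR.1)
  have hAi : Ai (1, u, y) = (1, u, y) := by
    refine Prod.ext (P.A1 _) (Prod.ext ?_ (P.A2 _))
    have h1 := congrArg Prod.fst hA
    simp only [AA, hD, smul_zero, sub_zero] at h1
    exact h1
  rw [hAi] at hD hR
  have hr : rot (G (1, u)) y = y := by
    obtain ⟨c, h0, h1⟩ := hR.2
    exact rot_scal (hG.unit _) hy h0 h1
  obtain ⟨hV, hre, c, hc0, hcy⟩ := crit_pt hG hy hD hr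
  obtain ⟨⟨u', hu', hrel⟩, hH⟩ := hc u hV hre
  refine ⟨?_, ?_, ?_⟩
  · have hg : G (1, u') = G (1, u) := hG.inv 1 u u' hrel
    rcases lt_or_gt_of_ne hc0 with h | h
    · refine ⟨(u', -imv (G (1, u'))), Finset.mem_union_right _ (Finset.mem_image_of_mem _ hu'),
        hrel, (-c)⁻¹, inv_pos.2 (neg_pos.2 h), ?_⟩
      show -imv (G (1, u')) = (-c)⁻¹ • y
      rw [hg, hcy, smul_smul, inv_neg, neg_mul, inv_mul_cancel₀ hc0, neg_smul, one_smul]
    · refine ⟨(u', imv (G (1, u'))), Finset.mem_union_left _ (Finset.mem_image_of_mem _ hu'),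
        hrel, c⁻¹, inv_pos.2 h, ?_⟩
      show imv (G (1, u')) = c⁻¹ • y
      rw [hg, hcy, smul_smul, inv_mul_cancel₀ hc0, one_smul]
  · rw [hAi]
    refine Prod.ext ?_ hr
    simp only [BB, hD, smul_zero, add_zero]
  · intro v r hv
    have dI := (P.sA.contDiffAt (Om_nhds hw)).differentiableAt (by simp)
    have dA := (contDiffAt_AA (ε := ε) hG hp).differentiableAt (by simp)
    have dB := (contDiffAt_BB (ε := ε) hG hp).differentiableAt (by simp)
    have h1 := fix_fst P.A1 dI (0, v)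
    have h2 := fix_snd P.Ar hw dA dI (0, v)
    rw [fix_comp dB dI] at hv
    rw [hAi] at h2 hv
    generalize fderiv ℝ Ai (1, u, y) (0, v) = l at h1 h2 hv
    obtain ⟨t, du, dy⟩ := l
    obtain rfl : t = 0 := h1
    rw [fderiv_AA hG hw] at h2
    rw [fderiv_BB hG hw] at hv
    have h3 : v = (du - ε • fderiv ℝ (DD G) (1, u, y) (0, du, dy), dy) := h2.symm
    rw [h3] at hv
    have h4 : du + ε • fderiv ℝ (DD G) (1, u, y) (0, du, dy) =
        du - ε • fderiv ℝ (DD G) (1, u, y) (0, du, dy) + 0 := congrArg Prod.fst hv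
    have h5 : fderiv ℝ (DD G) (1, u, y) (0, du, dy) = 0 := by
      have h6 : (2 * ε) • fderiv ℝ (DD G) (1, u, y) (0, du, dy) = 0 := by
        rw [mul_smul, two_smul]
        linear_combination (exp := 1) h4
      exact (smul_eq_zero.1 h6).resolve_left (mul_pos two_pos P.pos).ne'
    obtain ⟨h7, r', h8⟩ := crit_nd hG hy hD hr hH h5 (congrArg Prod.snd hv)
    refine ⟨r', ?_⟩
    rw [h3, h5, smul_zero, sub_zero, h7, h8]

end

end Vale.Agent.P265.S
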