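import Vale.Agent.P265.S.Defs

/-! P265 S/Per (TASK). Helper lemma names start with per_.
Periodisation. per H w = H (fract w.1, w.2). With n = round τ or ⌊τ⌋: for |τ' - n| < 1 / 10 the fractional part is < 1 / 10 or > 9 / 10, so per H = 0 there;
near a point with non-integer τ, fract τ' = τ' - ⌊τ⌋ (`Int.fract_eq_iff`, `Int.floor_eq_iff`, `Ioo_mem_nhds`). per_eq: for -1 / 10 < τ' < 11 / 10 per H = H
(cases τ' < 0, τ' < 1, else). -/

namespace Vale.Agent.P265.S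

open scoped ContDiff Quaternion Topology
open Set Filter

noncomputable section

def per (H : W8 → ℝ) (w : W8) : ℝ := H (Int.fract w.1, w.2)

variable {H : W8 → ℝ}

theorem per_key (h0 : ∀ w ∈ Om, w.1 < 1 / 10 ∨ 9 / 10 < w.1 → H w = 0) (n : ℤ) {w : W8}
    (hw : w ∈ Om) (h1 : w.1 - n ∈ Ioo (-(1 / 10) : ℝ) (11 / 10)) : per H w = H (w.1 - n, w.2) := by
  have e : ∀ m : ℤ, 0 ≤ w.1 - m → w.1 - m < 1 → Int.fract w.1 = w.1 - m := fun m a b =>
    Int.fract_eq_iff.2 ⟨a, b, m, by ring⟩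
  obtain ⟨a, b⟩ := h1
  rcases lt_or_ge (w.1 - n) 0 with c | c
  · have := e (n - 1) (by push_cast; linarith) (by push_cast; linarith)
    rw [per, h0 (w.1 - n, w.2) hw (Or.inl (by linarith)), h0 (Int.fract w.1, w.2) hw
      (Or.inr (by rw [this]; push_cast; linarith))]
  rcases lt_or_ge (w.1 - n) 1 with d | d
  · rw [per, e n c d]
  · have := e (n + 1) (by push_cast; linarith) (by push_cast; linarith)
    rw [per, h0 (w.1 - n, w.2) hw (Or.inr (by linarith)), h0 (Int.fract w.1, w.2) hw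
      (Or.inl (by rw [this]; push_cast; linarith))]

theorem per_ev (h0 : ∀ w ∈ Om, w.1 < 1 / 10 ∨ 9 / 10 < w.1 → H w = 0) (n : ℤ) {w : W8}
    (hw : w ∈ Om) (h1 : w.1 - n ∈ Icc (0 : ℝ) 1) :
    per H =ᶠ[𝓝 w] fun w => H (w.1 - n, w.2) := by
  have hc : Continuous fun w : W8 => w.1 - n := continuous_fst.sub continuous_const
  filter_upwards [Om_nhds hw, hc.continuousAt.preimage_mem_nhds
    (Ioo_mem_nhds (a := -(1 / 10)) (b := 11 / 10) (by linarith [h1.1]) (by linarith [h1.2]))]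
    with v hv hv' using per_key h0 n hv hv'

theorem per_smooth (hH : ContDiffOn ℝ ∞ H Om)
    (h0 : ∀ w ∈ Om, w.1 < 1 / 10 ∨ 9 / 10 < w.1 → H w = 0) : ContDiffOn ℝ ∞ (per H) Om := by
  intro w hw
  refine ContDiffAt.contDiffWithinAt (ContDiffAt.congr_of_eventuallyEq ?_
    (per_ev h0 ⌊w.1⌋ hw ⟨Int.fract_nonneg _, (Int.fract_lt_one _).le⟩))
  exact (hH.contDiffAt (Om_nhds (w := (w.1 - ⌊w.1⌋, w.2)) hw)).comp w
    (f := fun v : W8 => ((v.1 - ⌊w.1⌋, v.2) : W8))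
    ((contDiffAt_fst.sub contDiffAt_const).prodMk contDiffAt_snd)

theorem per_eq (h0 : ∀ w ∈ Om, w.1 < 1 / 10 ∨ 9 / 10 < w.1 → H w = 0) {w : W8} (hw : w ∈ Om)
    (h1 : w.1 ∈ Icc (0 : ℝ) 1) : per H =ᶠ[𝓝 w] H := by
  simpa using per_ev h0 0 hw (by simpa using h1)

theorem per_add (τ : ℝ) (z : E7) : per H (τ + 1, z) = per H (τ, z) := by
  simp only [per, Int.fract_add_one]

end

end Vale.Agent.P265.S
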