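import Vale.Agent.P265.S.Defs

/-! P265 S/Bij (TASK). Helper lemma names start with bij_.
Fix τ, y ≠ 0, f u = D (τ, u, y). From h.eqv with c = 1: f (act u) = lin (f u) and act u + e • f (act u) = act (u + e • f u)
(act_add_lin, linL). The first component of f is invariant, so |(f u).1| ≤ C for all u (exists_slab). On the convex set
s ∈ Icc (-2) 3, f is C-Lipschitz (`Convex.norm_image_sub_le_of_norm_fderiv_le`). Injective: move u to the slab (act_inv moves u' along; act is injective),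
then |s - s'| ≤ 1 / 2, so ‖u - u'‖ ≤ ‖u - u'‖ / 4. Surjective: for v in the slab u ↦ v - e • f u is a contraction of the closed set s ∈ Icc (-1) 2
(`ContractingWith.exists_fixedPoint'`). rigid: move u to the slab (Rel4.trans, Rel4.symm); for u in the slab compare the components of
u + e f = act m n a b (u - e f): m = 2 e f.1 has modulus < 1, so m = 0; then n = 0, act_trans, a = 0, b = 0. -/

namespace Vale.Agent.P265.S

open scoped ContDiff Quaternion Topology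
open Set Filter

noncomputable section

variable {D : W8 → R4} {C e : ℝ}

theorem bij_eq (h : Eqv D) (τ : ℝ) {y : R3} (hy : y ≠ 0) (m n a b : ℤ) (u : R4) :
    D (τ, act m n a b u, y) = lin m n (D (τ, u, y)) := by
  have := h.eqv τ (u, y) m n a b 1 hy one_pos
  rwa [TT, one_smul] at this

theorem bij_act (h : Eqv D) (e τ : ℝ) {y : R3} (hy : y ≠ 0) (m n a b : ℤ) (u : R4) :
    act m n a b u + e • D (τ, act m n a b u, y) = act m n a b (u + e • D (τ, u, y)) := by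
  rw [bij_eq h τ hy, act_add_lin, ← linL_apply, ← linL_apply, map_smul]

theorem bij_norm (hb : Bdd D C) (he : |e| * C ≤ 1 / 4) (τ : ℝ) {y : R3} (hy : y ≠ 0) {u : R4}
    (hu : u.1 ∈ Icc (-2 : ℝ) 3) : ‖e • D (τ, u, y)‖ ≤ 1 / 4 := by
  rw [norm_smul, Real.norm_eq_abs]
  exact (mul_le_mul_of_nonneg_left (hb τ u y hy hu).1 (abs_nonneg e)).trans he

theorem bij_fst (h : Eqv D) (hb : Bdd D C) (he : |e| * C ≤ 1 / 4) (τ : ℝ) {y : R3} (hy : y ≠ 0)
    (u : R4) : |(e • D (τ, u, y)).1| ≤ 1 / 4 := by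
  obtain ⟨m, n, a, b, u0, h0, rfl⟩ := exists_slab u
  rw [bij_eq h τ hy]
  exact (norm_fst_le (e • D (τ, u0, y))).trans
    (bij_norm hb he τ hy ⟨by linarith [h0.1], by linarith [h0.2]⟩)

theorem bij_lip (h : Eqv D) (hb : Bdd D C) (he : |e| * C ≤ 1 / 4) (τ : ℝ) {y : R3} (hy : y ≠ 0)
    {u u' : R4} (hu : u.1 ∈ Icc (-2 : ℝ) 3) (hu' : u'.1 ∈ Icc (-2 : ℝ) 3) :
    ‖e • D (τ, u', y) - e • D (τ, u, y)‖ ≤ 1 / 4 * ‖u' - u‖ := by
  have hc : Convex ℝ {v : R4 | v.1 ∈ Icc (-2 : ℝ) 3} :=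
    (convex_Icc (-2 : ℝ) 3).linear_preimage (LinearMap.fst ℝ ℝ (ℝ × ℝ × ℝ))
  have hd : ∀ v : R4, DifferentiableAt ℝ (fun v => D (τ, v, y)) v := fun v =>
    ((h.smooth.contDiffAt (Om_nhds (w := (τ, v, y)) hy)).differentiableAt (by simp)).comp v
      (f := fun v : R4 => ((τ, v, y) : W8)) (by fun_prop)
  have h1 := hc.norm_image_sub_le_of_norm_fderiv_le (fun v _ => hd v)
    (fun v hv => (hb τ v y hy hv).2) hu hu'
  rw [← smul_sub, norm_smul, Real.norm_eq_abs]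
  refine (mul_le_mul_of_nonneg_left h1 (abs_nonneg e)).trans ?_
  rw [← mul_assoc]
  exact mul_le_mul_of_nonneg_right he (norm_nonneg _)

theorem bij_int {m : ℤ} {x w : ℝ} (hw : |w| ≤ 1 / 4) (h : x + w = x - w + m) : m = 0 ∧ w = 0 := by
  have h1 := abs_le.1 hw
  have a1 : (m : ℝ) < 1 := by linarith [h1.2]
  have a2 : (-1 : ℝ) < m := by linarith [h1.1]
  have a3 : m < 1 := by exact_mod_cast a1
  have a4 : -1 < m := by exact_mod_cast a2
  obtain rfl : m = 0 := by omega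
  refine ⟨rfl, ?_⟩
  push_cast at h
  linarith

theorem Eqv.inj (h : Eqv D) (hb : Bdd D C) (he : |e| * C ≤ 1 / 4) (τ : ℝ) {y : R3} (hy : y ≠ 0) :
    Function.Injective fun u => u + e • D (τ, u, y) := by
  intro u u' huu
  obtain ⟨m, n, a, b, u0, h0, rfl⟩ := exists_slab u
  obtain ⟨a', b', hi⟩ := act_inv m n a b
  obtain ⟨a'', b'', hi'⟩ := act_inv (-m) (-n) a' b'
  have e1 := congrArg (act (-m) (-n) a' b') huu
  simp only [← bij_act h e τ hy, hi] at e1
  set u1 := act (-m) (-n) a' b' u' with hu1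
  have f0 := abs_le.1 (bij_fst h hb he τ hy u0)
  have f1 := abs_le.1 (bij_fst h hb he τ hy u1)
  have e2 : u0.1 + (e • D (τ, u0, y)).1 = u1.1 + (e • D (τ, u1, y)).1 := congrArg Prod.fst e1
  have l := bij_lip h hb he τ hy (u := u0) (u' := u1) ⟨by linarith [h0.1], by linarith [h0.2]⟩
    ⟨by linarith [h0.1], by linarith [h0.2]⟩
  have e3 : e • D (τ, u1, y) - e • D (τ, u0, y) = -(u1 - u0) := by
    rw [neg_sub, sub_eq_sub_iff_add_eq_add, add_comm, e1, add_comm]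
  rw [e3, norm_neg] at l
  have e4 : u1 = u0 := sub_eq_zero.1 (norm_eq_zero.1 (by linarith [norm_nonneg (u1 - u0)]))
  rw [← hi' u', ← hu1, e4, ← hi' (act m n a b u0), hi]

theorem Eqv.surj (h : Eqv D) (hb : Bdd D C) (he : |e| * C ≤ 1 / 4) (τ : ℝ) {y : R3} (hy : y ≠ 0) :
    Function.Surjective fun u => u + e • D (τ, u, y) := by
  intro v
  obtain ⟨m, n, a, b, v0, h0, rfl⟩ := exists_slab v
  have hs : IsClosed {v : R4 | v.1 ∈ Icc (-2 : ℝ) 3} := isClosed_Icc.preimage continuous_fst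
  have hm : MapsTo (fun u => v0 - e • D (τ, u, y)) {v : R4 | v.1 ∈ Icc (-2 : ℝ) 3}
      {v : R4 | v.1 ∈ Icc (-2 : ℝ) 3} := by
    intro u _
    have f0 := abs_le.1 (bij_fst h hb he τ hy u)
    change v0.1 - (e • D (τ, u, y)).1 ∈ Icc (-2 : ℝ) 3
    exact ⟨by linarith [h0.1], by linarith [h0.2]⟩
  have hk : ContractingWith (1 / 4) (hm.restrict _ _ _) := by
    refine ⟨by norm_num, LipschitzWith.of_dist_le_mul fun u u' => ?_⟩
    have l := bij_lip h hb he τ hy u.2 u'.2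
    rw [Subtype.dist_eq, Subtype.dist_eq, MapsTo.val_restrict_apply, MapsTo.val_restrict_apply,
      dist_eq_norm, dist_eq_norm, sub_sub_sub_cancel_left, norm_sub_rev u.1]
    simpa using l
  obtain ⟨u, -, hu, -⟩ := hk.exists_fixedPoint' hs.isComplete hm (x := v0)
    ⟨by linarith [h0.1], by linarith [h0.2]⟩ (edist_ne_top _ _)
  refine ⟨act m n a b u, ?_⟩
  simp only
  rw [bij_act h e τ hy, eq_sub_iff_add_eq.1 hu.eq.symm]

theorem Eqv.rigid (h : Eqv D) (hb : Bdd D C) (he : |e| * C ≤ 1 / 4) (he0 : e ≠ 0) (τ : ℝ) (u : R4)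
    {y : R3} (hy : y ≠ 0) (hr : Rel4 (u - e • D (τ, u, y)) (u + e • D (τ, u, y))) :
    D (τ, u, y) = 0 := by
  obtain ⟨m, n, a, b, u, h0, rfl⟩ := exists_slab u
  have e1 := bij_act h (-e) τ hy m n a b u
  simp only [neg_smul, ← sub_eq_add_neg] at e1
  rw [e1, bij_act h e τ hy] at hr
  obtain ⟨i, j, k, l, e2⟩ := (Rel4.trans ⟨m, n, a, b, rfl⟩ hr).trans (Rel4.symm ⟨m, n, a, b, rfl⟩)
  have hw := bij_norm hb he τ hy (u := u) ⟨by linarith [h0.1], by linarith [h0.2]⟩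
  set w := e • D (τ, u, y) with hwd
  simp only [Prod.norm_def, max_le_iff, Real.norm_eq_abs] at hw
  obtain ⟨rfl, w1⟩ := bij_int hw.1 (congrArg Prod.fst e2)
  obtain ⟨rfl, w2⟩ := bij_int hw.2.1 (congrArg (fun x : R4 => x.2.1) e2)
  rw [act_trans] at e2
  obtain ⟨-, w3⟩ := bij_int hw.2.2.1 (congrArg (fun x : R4 => x.2.2.1) e2)
  obtain ⟨-, w4⟩ := bij_int hw.2.2.2 (congrArg (fun x : R4 => x.2.2.2) e2)
  have w0 : w = 0 := Prod.ext w1 (Prod.ext w2 (Prod.ext w3 w4))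
  rw [bij_eq h τ hy, (smul_eq_zero.1 (hwd.symm.trans w0)).resolve_left he0]
  exact (linL m n).map_zero

end

end Vale.Agent.P265.S
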