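import Vale.Agent.P265.S.Dd

/-! P265 S/Crit (TASK). Helper lemma names start with crit_.
Points with DD = 0 and rot g y = y, where g = G (1, u), V = imv g. DD = 0 gives dot (xi (1, u) (0, v)) y = 0 for all v (om4_DD, dot_pos).
crit_pt: if V = 0 then xi_pole, fderiv_slice with imvL and hG.reg give dot y y = 0. rot_fix gives y = c • V, c ≠ 0; xi_dot with xi_re and fderiv_slice with reL give dr = 0.
crit_nd: r = 0 (dot with y = rot g y, dot_rot, dot y (cross x y) = 0). Put dV = imv (dG (0, du)). rot_imv and linearity of rot give rot g (dy - c • dV) = dy - c • dV, so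
dy - c • dV = c' • V (rot_fix). For every e: om4_fderiv_DD and fderiv_th give dot (dxi (1, u) (0, du) (0, e)) y + dot (xi (0, e)) dy = 0.
The functions u ↦ dot (xi (1, u) (0, e)) (imv (G (1, u))) and u ↦ - fderiv r u e agree (xi_dot, fderiv_slice); differentiate in the direction du (fderiv_dot, `fderiv_clm_apply`):
dot (dxi ..) V + dot (xi (0, e)) dV = - Hess du e. Hence c * Hess du e = 0, du = 0 by injectivity, dV = 0. -/

namespace Vale.Agent.P265.S

open scoped ContDiff Quaternion Topology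
open Set Filter

noncomputable section

variable {G : W5 → ℍ}

theorem crit_smul (x y : R3) (c : ℝ) : dot x (c • y) = c * dot x y := by
  simp only [dot, Prod.smul_fst, Prod.smul_snd, smul_eq_mul]
  ring

theorem crit_sub (x y z : R3) : dot x (y - z) = dot x y - dot x z := by
  simp only [dot, Prod.fst_sub, Prod.snd_sub]
  ring

theorem crit_s {y : R3} (hy : y ≠ 0) : (√(dot y y))⁻¹ ≠ 0 :=
  inv_ne_zero (Real.sqrt_pos.2 (dot_pos hy)).ne'

theorem crit_xi {u : R4} {y : R3} (hy : y ≠ 0) (hD : DD G (1, u, y) = 0) (v : R4) :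
    dot (xi G (1, u) (0, v)) y = 0 := by
  have h := om4_DD (G := G) (1, u, y) v
  have h0 : om4 0 v = 0 := by simp [om4]
  rw [hD, h0] at h
  have h1 : th G (0, v) (1, u, y) = (√(dot y y))⁻¹ * dot (xi G (1, u) (0, v)) y := crit_smul _ _ _
  rw [h1] at h
  exact (mul_eq_zero.1 h.symm).resolve_left (crit_s hy)

theorem crit_re (hG : IsPath G) (u v : R4) : dot (xi G (1, u) (0, v)) (imv (G (1, u))) =
    -fderiv ℝ (fun u => (G (1, u)).re) u v := by
  have h : fderiv ℝ (fun u => (G (1, u)).re) u v = (fderiv ℝ G (1, u) (0, v)).re :=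
    fderiv_slice hG reL u v
  rw [h]
  exact xi_dot (hG.unit _) (xi_re hG _ _)

theorem crit_hess (hG : IsPath G) (u du e : R4) :
    dot (dxi G (1, u) (0, du) (0, e)) (imv (G (1, u))) +
      dot (xi G (1, u) (0, e)) (imv (fderiv ℝ G (1, u) (0, du))) =
      -fderiv ℝ (fderiv ℝ fun u => (G (1, u)).re) u du e := by
  have hi : ContDiff ℝ ∞ fun u : R4 => ((1 : ℝ), u) := contDiff_const.prodMk contDiff_id
  have hg : ContDiff ℝ ∞ fun u : R4 => G (1, u) := hG.smooth.comp hi
  have hr : ContDiff ℝ ∞ fun u : R4 => (G (1, u)).re := reL.contDiff.comp hg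
  have hV : ContDiff ℝ ∞ fun u : R4 => imv (G (1, u)) := imvL.contDiff.comp hg
  have hx := ((contDiff_xi hG (0, e)).differentiable (by simp) (1, u)).hasFDerivAt.comp u
    (hasFDerivAt_prodMk_right (𝕜 := ℝ) (1 : ℝ) u)
  have h1 := fderiv_dot (f := fun u => xi G (1, u) (0, e)) hx.differentiableAt
    (hV.differentiable (by simp) u) du
  have h2 : fderiv ℝ (fun u => xi G (1, u) (0, e)) u du = dxi G (1, u) (0, du) (0, e) :=
    congrArg (fun L : R4 →L[ℝ] R3 => L du) hx.fderiv
  have h3 : fderiv ℝ (fun u => imv (G (1, u))) u du = imv (fderiv ℝ G (1, u) (0, du)) :=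
    fderiv_slice hG imvL u du
  rw [h2, h3] at h1
  rw [← h1, funext fun u => crit_re hG u e]
  have h4 : DifferentiableAt ℝ (fderiv ℝ fun u : R4 => (G (1, u)).re) u :=
    (hr.fderiv_right (m := ∞) le_rfl).differentiable (by simp) u
  rw [fderiv_fun_neg, neg_apply,
    fderiv_clm_apply h4 (differentiableAt_const e)]
  simp

theorem crit_pt (hG : IsPath G) {u : R4} {y : R3} (hy : y ≠ 0) (hD : DD G (1, u, y) = 0)
    (hr : rot (G (1, u)) y = y) : imv (G (1, u)) ≠ 0 ∧
      fderiv ℝ (fun u => (G (1, u)).re) u = 0 ∧ ∃ c : ℝ, c ≠ 0 ∧ y = c • imv (G (1, u)) := by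
  have hV : imv (G (1, u)) ≠ 0 := by
    intro hV
    obtain ⟨v, hv⟩ := hG.reg u hV y
    have h1 : fderiv ℝ (fun u => imv (G (1, u))) u v = imv (fderiv ℝ G (1, u) (0, v)) :=
      fderiv_slice hG imvL u v
    obtain ⟨h2, h3⟩ := xi_pole (hG.unit (1, u)) hV (fderiv ℝ G (1, u) (0, v))
    have h4 := crit_xi hy hD v
    rw [xi, h3, ← h1, hv, dot_comm, crit_smul] at h4
    exact mul_ne_zero h2 (dot_pos hy).ne' h4
  obtain ⟨c, hc⟩ := rot_fix (hG.unit _) hV hr
  have hc0 : c ≠ 0 := fun h => hy (by rw [hc, h, zero_smul])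
  refine ⟨hV, ContinuousLinearMap.ext fun v => ?_, c, hc0, hc⟩
  have h1 := crit_xi hy hD v
  rw [hc, crit_smul, crit_re hG] at h1
  exact neg_eq_zero.1 ((mul_eq_zero.1 h1).resolve_left hc0)

theorem crit_nd (hG : IsPath G) {u : R4} {y : R3} (hy : y ≠ 0) (hD : DD G (1, u, y) = 0)
    (hr : rot (G (1, u)) y = y)
    (hH : Function.Injective (fderiv ℝ (fderiv ℝ fun u => (G (1, u)).re) u)) {du : R4} {dy : R3}
    {r : ℝ} (h1 : fderiv ℝ (DD G) (1, u, y) (0, du, dy) = 0)
    (h2 : rot (G (1, u)) (dy + (2 : ℝ) • cross (xi G (1, u) (0, du)) y) = dy + r • y) :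
    du = 0 ∧ ∃ r' : ℝ, dy = r' • y := by
  obtain ⟨hV, hre, c, hc0, hc⟩ := crit_pt hG hy hD hr
  have hu := hG.unit (1, u)
  have hr0 : r = 0 := by
    have h3 := dot_rot hu (dy + (2 : ℝ) • cross (xi G (1, u) (0, du)) y) y
    rw [h2, hr] at h3
    have h4 : r * dot y y = 0 := by
      simp only [dot, cross, Prod.fst_add, Prod.snd_add, Prod.smul_fst, Prod.smul_snd,
        smul_eq_mul] at h3 ⊢
      linear_combination h3
    exact (mul_eq_zero.1 h4).resolve_right (dot_pos hy).ne'
  rw [hr0, zero_smul, add_zero] at h2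
  have h3 := rot_imv hu (xi_re hG (1, u) (0, du))
  have h4 : rot (G (1, u)) (dy - c • imv (fderiv ℝ G (1, u) (0, du))) =
      dy - c • imv (fderiv ℝ G (1, u) (0, du)) := by
    have e : dy - c • imv (fderiv ℝ G (1, u) (0, du)) =
        dy + (2 : ℝ) • cross (xi G (1, u) (0, du)) y - c • (imv (fderiv ℝ G (1, u) (0, du)) +
          (2 : ℝ) • cross (xi G (1, u) (0, du)) (imv (G (1, u)))) := by
      rw [hc]
      refine Prod.ext ?_ (Prod.ext ?_ ?_)
      all_goals
        simp only [cross, Prod.fst_add, Prod.snd_add, Prod.fst_sub, Prod.snd_sub, Prod.smul_fst,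
          Prod.smul_snd, smul_eq_mul]
        ring
    conv_lhs => rw [e, rot_sub, rot_smul, h2]
    exact congrArg (fun t => dy - c • t) h3
  obtain ⟨c', hc'⟩ := rot_fix hu hV h4
  have hdu : du = 0 := by
    refine hH ?_
    rw [map_zero]
    refine ContinuousLinearMap.ext fun e => ?_
    have h5 := om4_fderiv_DD hG (w := (1, u, y)) hy (0, du, dy) e
    have h0 : om4 0 e = 0 := by simp [om4]
    rw [h1, h0, fderiv_th hG _ (w := (1, u, y)) hy] at h5
    have h6 : 0 = (√(dot y y))⁻¹ *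
        (dot (dxi G (1, u) (0, du) (0, e)) y + dot (xi G (1, u) (0, e)) dy) := by
      have h7 : 0 = dot (dxi G (1, u) (0, du) (0, e)) (nv y) +
          dot (xi G (1, u) (0, e)) (dnv y dy) := h5
      rw [nv, dnv, crit_sub, crit_smul, crit_smul, crit_smul, crit_xi hy hD e] at h7
      linear_combination h7
    have h8 := (mul_eq_zero.1 h6.symm).resolve_left (crit_s hy)
    have h9 := crit_hess hG u du e
    have h10 := congrArg (dot (xi G (1, u) (0, e))) hc'
    rw [crit_sub, crit_smul, crit_smul, crit_re hG, hre] at h10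
    rw [hc, crit_smul] at h8
    simp only [zero_apply] at h10 ⊢
    refine (mul_eq_zero.1 ?_).resolve_left hc0
    linear_combination c * h9 - h8 + h10
  refine ⟨hdu, c' / c, ?_⟩
  have h0 : ((0 : ℝ), (0 : R4)) = 0 := rfl
  have h5 : imv 0 = 0 := rfl
  rw [hdu, h0, map_zero, h5, smul_zero, sub_zero] at hc'
  rw [hc', hc, smul_smul, div_mul_cancel₀ _ hc0]

end

end Vale.Agent.P265.S
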