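import Vale.Agent.P265.S.Th

/-! P265 S/Dd (TASK). Helper lemma names start with dd_.
The field DD. om4_DD: (0, v) is a combination of the four basis vectors, xi_add, xi_smul.
om4_fderiv_DD: (fun w => omL v (DD w)) = th (0, v), `ContinuousLinearMap.fderiv` chain rule (`fderiv_comp`).
th_act: xi_act, nv_smul. DD_act: om4_ext, write v = lin m n (lin (-m) n v) (lin_lin), om4_lin.
lo, hi: xi_lo, xi_hi, hG.start, hG.stop. UU (τ, TT .. c z) = (τ, TT .. c (UU (τ, z)).2) by hG.inv and rot_smul. -/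

namespace Vale.Agent.P265.S

open scoped ContDiff Quaternion Topology
open Set Filter

noncomputable section

variable {G : W5 → ℍ} {ε : ℝ}

theorem om4_DD (w : W8) (v : R4) : om4 (DD G w) v = th G (0, v) w := by
  have e : ((0, v) : W5) = v.1 • ((0, 1, 0, 0, 0) : W5) + v.2.1 • ((0, 0, 1, 0, 0) : W5) +
      v.2.2.1 • ((0, 0, 0, 1, 0) : W5) + v.2.2.2 • ((0, 0, 0, 0, 1) : W5) := by
    simp
  rw [e]
  simp only [om4, DD, th, xi_add, xi_smul, dot, Prod.fst_add, Prod.snd_add, Prod.smul_fst,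
    Prod.smul_snd, smul_eq_mul]
  ring

theorem contDiffAt_DD (hG : IsPath G) {w : W8} (hw : w ∈ Om) : ContDiffAt ℝ ∞ (DD G) w :=
  (contDiffAt_th hG _ hw).prodMk ((contDiffAt_th hG _ hw).neg.prodMk
    ((contDiffAt_th hG _ hw).prodMk (contDiffAt_th hG _ hw).neg))

theorem contDiffAt_AA (hG : IsPath G) {w : W8} (hw : w ∈ Om) : ContDiffAt ℝ ∞ (AA G ε) w :=
  (uL.contDiff.contDiffAt.sub ((contDiffAt_DD hG hw).const_smul ε)).prodMk yL.contDiff.contDiffAt

theorem contDiffAt_BB (hG : IsPath G) {w : W8} (hw : w ∈ Om) : ContDiffAt ℝ ∞ (BB G ε) w :=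
  (uL.contDiff.contDiffAt.add ((contDiffAt_DD hG hw).const_smul ε)).prodMk
    (contDiff_RR hG).contDiffAt

theorem contDiffAt_hh (hG : IsPath G) {w : W8} (hw : w ∈ Om) : ContDiffAt ℝ ∞ (hh G) w :=
  contDiffAt_const.mul (contDiffAt_th hG _ hw)

theorem dd_has (hG : IsPath G) {w : W8} (hw : w ∈ Om) :
    HasFDerivAt (DD G) (fderiv ℝ (DD G) w) w :=
  ((contDiffAt_DD hG hw).differentiableAt (by simp)).hasFDerivAt

theorem om4_fderiv_DD (hG : IsPath G) {w : W8} (hw : w ∈ Om) (l : W8) (v : R4) :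
    om4 (fderiv ℝ (DD G) w l) v = fderiv ℝ (th G (0, v)) w l := by
  have e : th G (0, v) = omL v ∘ DD G := funext fun w => (om4_DD w v).symm
  rw [e, ((omL v).hasFDerivAt.comp w (dd_has hG hw)).fderiv]
  rfl

theorem fderiv_AA (hG : IsPath G) {w : W8} (hw : w ∈ Om) (l : W8) :
    fderiv ℝ (AA G ε) w l = (l.2.1 - ε • fderiv ℝ (DD G) w l, l.2.2) := by
  have h : HasFDerivAt (AA G ε) _ w :=
    (uL.hasFDerivAt.sub ((dd_has hG hw).const_smul ε)).prodMk yL.hasFDerivAt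
  rw [h.fderiv]
  rfl

theorem fderiv_BB (hG : IsPath G) {w : W8} (hw : w ∈ Om) (l : W8) :
    fderiv ℝ (BB G ε) w l = (l.2.1 + ε • fderiv ℝ (DD G) w l,
      rot (G (pr w)) (l.2.2 + (2 : ℝ) • cross (xi G (pr w) (pr l)) w.2.2)) := by
  have h : HasFDerivAt (BB G ε) _ w :=
    (uL.hasFDerivAt.add ((dd_has hG hw).const_smul ε)).prodMk
      ((contDiff_RR hG).differentiable (by simp) w).hasFDerivAt
  rw [h.fderiv, ← fderiv_RR hG w l]
  rfl

end

end Vale.Agent.P265.S
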