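import Vale.Agent.P265.Base

/-! P265 block S: definitions (owner helper20, FROZEN). See `notes/P265.md`, block S.
A point of `W8` is `(τ, u, y)`; `pr w = (τ, u)`; `Om` is the open set `y ≠ 0`. -/

namespace Vale.Agent.P265.S

open scoped ContDiff Quaternion Topology
open Set Filter

noncomputable section

abbrev W5 : Type := ℝ × R4
abbrev W8 : Type := ℝ × E7

/-- the purely imaginary quaternion with vector part `y` -/
def im (y : R3) : ℍ := ⟨0, y.1, y.2.1, y.2.2⟩

@[simp] theorem im_re (y : R3) : (im y).re = 0 := rfl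
@[simp] theorem im_imI (y : R3) : (im y).imI = y.1 := rfl
@[simp] theorem im_imJ (y : R3) : (im y).imJ = y.2.1 := rfl
@[simp] theorem im_imK (y : R3) : (im y).imK = y.2.2 := rfl

/-- rotation by a unit quaternion -/
def rot (q : ℍ) (y : R3) : R3 := imv (q * im y * star q)

/-- the unit vector of `y` -/
def nv (y : R3) : R3 := (√(dot y y))⁻¹ • y

/-- the derivative of `nv` at `y` in the direction `a` -/
def dnv (y a : R3) : R3 := (√(dot y y))⁻¹ • a - (dot y a / √(dot y y) ^ 3) • y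

def pr (w : W8) : W5 := (w.1, w.2.1)

def Om : Set W8 := {w | w.2.2 ≠ 0}

/-- the action of `Γ` times the positive scalings -/
def TT (m n a b : ℤ) (c : ℝ) (z : E7) : E7 := (act m n a b z.1, c • z.2)

section

variable (G : W5 → ℍ) (ε : ℝ)

/-- the logarithmic derivative of `G` -/
def xi (p l : W5) : R3 := imv (star (G p) * fderiv ℝ G p l)

/-- the derivative of `xi G · l'` at `p` in the direction `l` -/
def dxi (p l l' : W5) : R3 := fderiv ℝ (fun p => xi G p l') p l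

def th (l : W5) (w : W8) : ℝ := dot (xi G (pr w) l) (nv w.2.2)

def DD (w : W8) : R4 :=
  (th G (0, 0, 1, 0, 0) w, -th G (0, 1, 0, 0, 0) w, th G (0, 0, 0, 0, 1) w, -th G (0, 0, 0, 1, 0) w)

def RR (w : W8) : R3 := rot (G (pr w)) w.2.2

def AA (w : W8) : E7 := (w.2.1 - ε • DD G w, w.2.2)

def BB (w : W8) : E7 := (w.2.1 + ε • DD G w, RR G w)

def hh (w : W8) : ℝ := 2 * th G (1, 0) w

/-- the inverse rotation, at the same `(τ, u)` -/
def UU (w : W8) : W8 := (w.1, w.2.1, rot (star (G (pr w))) w.2.2)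

/-- the inverses of `AA` and `BB` -/
structure Pack (Ai Bi : W8 → W8) : Prop where
  pos : 0 < ε
  sA : ContDiffOn ℝ ∞ Ai Om
  sB : ContDiffOn ℝ ∞ Bi Om
  A1 : ∀ w, (Ai w).1 = w.1
  A2 : ∀ w, (Ai w).2.2 = w.2.2
  B1 : ∀ w, (Bi w).1 = w.1
  B2 : ∀ w ∈ Om, Bi w ∈ Om
  Ar : ∀ w ∈ Om, AA G ε (Ai w) = w.2
  Al : ∀ w ∈ Om, Ai (w.1, AA G ε w) = w
  Br : ∀ w ∈ Om, BB G ε (Bi w) = w.2
  Bl : ∀ w ∈ Om, Bi (w.1, BB G ε w) = w
  rig : ∀ w ∈ Om, Rel4 (AA G ε w).1 (BB G ε w).1 → DD G w = 0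

end

/-- an equivariant field -/
structure Eqv (D : W8 → R4) : Prop where
  smooth : ContDiffOn ℝ ∞ D Om
  eqv : ∀ (τ : ℝ) (z : E7) (m n a b : ℤ) (c : ℝ), z.2 ≠ 0 → 0 < c →
    D (τ, TT m n a b c z) = lin m n (D (τ, z))
  lo : ∀ τ z, τ ≤ 0 → D (τ, z) = D (0, z)
  hi : ∀ τ z, 1 ≤ τ → D (τ, z) = D (1, z)

/-- bounds on the slab `-2 ≤ s ≤ 3` -/
def Bdd (D : W8 → R4) (C : ℝ) : Prop :=
  ∀ (τ : ℝ) (u : R4) (y : R3), y ≠ 0 → u.1 ∈ Icc (-2 : ℝ) 3 →
    ‖D (τ, u, y)‖ ≤ C ∧ ‖fderiv ℝ (fun v => D (τ, v, y)) u‖ ≤ C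

/-- `ψ` inverts `u ↦ u + e • D` -/
structure Inv (D : W8 → R4) (e : ℝ) (ψ : W8 → R4) : Prop where
  left : ∀ τ u y, y ≠ 0 → ψ (τ, u + e • D (τ, u, y), y) = u
  right : ∀ τ v y, y ≠ 0 → ψ (τ, v, y) + e • D (τ, ψ (τ, v, y), y) = v

/-! Continuous linear versions. -/

def imvL : ℍ →L[ℝ] R3 := LinearMap.toContinuousLinearMap
  { toFun := imv, map_add' := fun _ _ => rfl, map_smul' := fun _ _ => rfl }

def imL : R3 →L[ℝ] ℍ := LinearMap.toContinuousLinearMap
  { toFun := im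
    map_add' := fun _ _ => by ext <;> simp
    map_smul' := fun _ _ => by ext <;> simp }

def reL : ℍ →L[ℝ] ℝ := LinearMap.toContinuousLinearMap
  { toFun := fun q => q.re, map_add' := fun _ _ => rfl, map_smul' := fun _ _ => rfl }

def stL : ℍ →L[ℝ] ℍ := LinearMap.toContinuousLinearMap
  { toFun := star
    map_add' := star_add
    map_smul' := fun _ _ => by ext <;> simp }

def prL : W8 →L[ℝ] W5 :=
  (ContinuousLinearMap.fst ℝ ℝ E7).prod
    ((ContinuousLinearMap.fst ℝ R4 R3).comp (ContinuousLinearMap.snd ℝ ℝ E7))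

def yL : W8 →L[ℝ] R3 := (ContinuousLinearMap.snd ℝ R4 R3).comp (ContinuousLinearMap.snd ℝ ℝ E7)

def uL : W8 →L[ℝ] R4 := (ContinuousLinearMap.fst ℝ R4 R3).comp (ContinuousLinearMap.snd ℝ ℝ E7)

def linL (m n : ℤ) : R4 →L[ℝ] R4 := LinearMap.toContinuousLinearMap
  { toFun := lin m n
    map_add' := fun u v => by
      simp only [lin, Prod.fst_add, Prod.snd_add, Prod.mk_add_mk, Prod.mk.injEq]
      refine ⟨trivial, trivial, by ring, by ring⟩
    map_smul' := fun c u => by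
      simp only [lin, Prod.smul_fst, Prod.smul_snd, Prod.smul_mk, smul_eq_mul, RingHom.id_apply,
        Prod.mk.injEq]
      refine ⟨trivial, trivial, by ring, by ring⟩ }

def dotL : R3 →L[ℝ] R3 →L[ℝ] ℝ := LinearMap.toContinuousLinearMap
  { toFun := fun p => LinearMap.toContinuousLinearMap
      { toFun := dot p
        map_add' := fun _ _ => by simp only [dot, Prod.fst_add, Prod.snd_add]; ring
        map_smul' := fun _ _ => by
          simp only [dot, Prod.smul_fst, Prod.smul_snd, smul_eq_mul, RingHom.id_apply]; ring }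
    map_add' := fun _ _ => ContinuousLinearMap.ext fun _ => by simp [dot]; ring
    map_smul' := fun _ _ => ContinuousLinearMap.ext fun _ => by simp [dot]; ring }

/-- `om4 · v` -/
def omL (v : R4) : R4 →L[ℝ] ℝ := LinearMap.toContinuousLinearMap
  { toFun := fun u => om4 u v
    map_add' := fun _ _ => by simp only [om4, Prod.fst_add, Prod.snd_add]; ring
    map_smul' := fun _ _ => by
      simp only [om4, Prod.smul_fst, Prod.smul_snd, smul_eq_mul, RingHom.id_apply]; ring }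

theorem imvL_apply (q : ℍ) : imvL q = imv q := rfl
theorem imL_apply (y : R3) : imL y = im y := rfl
theorem reL_apply (q : ℍ) : reL q = q.re := rfl
theorem stL_apply (q : ℍ) : stL q = star q := rfl
theorem prL_apply (w : W8) : prL w = pr w := rfl
theorem yL_apply (w : W8) : yL w = w.2.2 := rfl
theorem uL_apply (w : W8) : uL w = w.2.1 := rfl
theorem linL_apply (m n : ℤ) (u : R4) : linL m n u = lin m n u := rfl
theorem dotL_apply (p q : R3) : dotL p q = dot p q := rfl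
theorem omL_apply (u v : R4) : omL v u = om4 u v := rfl

theorem isOpen_Om : IsOpen Om := isOpen_ne_fun yL.continuous continuous_const

theorem Om_nhds {w : W8} (hw : w ∈ Om) : Om ∈ 𝓝 w := isOpen_Om.mem_nhds hw

theorem dot_comm (p q : R3) : dot p q = dot q p := by
  simp only [dot]
  ring

theorem dot_pos {y : R3} (hy : y ≠ 0) : 0 < dot y y := by
  by_contra h
  refine hy (Prod.ext ?_ (Prod.ext ?_ ?_))
  all_goals
    simp only [dot, not_lt] at h
    simp only [Prod.fst_zero, Prod.snd_zero]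
    nlinarith [mul_self_nonneg y.1, mul_self_nonneg y.2.1, mul_self_nonneg y.2.2]

theorem contDiff_dot {E : Type} [NormedAddCommGroup E] [NormedSpace ℝ E] {f g : E → R3} {x : E}
    (hf : ContDiffAt ℝ ∞ f x) (hg : ContDiffAt ℝ ∞ g x) :
    ContDiffAt ℝ ∞ (fun x => dot (f x) (g x)) x :=
  (dotL.contDiff.contDiffAt.comp x hf).clm_apply hg

theorem fderiv_dot {E : Type} [NormedAddCommGroup E] [NormedSpace ℝ E] {f g : E → R3} {x : E}
    (hf : DifferentiableAt ℝ f x) (hg : DifferentiableAt ℝ g x) (l : E) :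
    fderiv ℝ (fun x => dot (f x) (g x)) x l =
      dot (fderiv ℝ f x l) (g x) + dot (f x) (fderiv ℝ g x l) := by
  have h := dotL.fderiv_of_bilinear hf hg
  simp only [dotL_apply] at h
  rw [h, add_comm]
  rfl

theorem act_eq (m n a b : ℤ) : act m n a b = fun u => act m n a b 0 + linL m n u := by
  funext u
  rw [linL_apply, ← act_add_lin, zero_add]

theorem hasFDerivAt_act (m n a b : ℤ) (u : R4) : HasFDerivAt (act m n a b) (linL m n) u := by
  rw [act_eq]
  exact (linL m n).hasFDerivAt.const_add _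

theorem contDiff_act (m n a b : ℤ) : ContDiff ℝ ∞ (act m n a b) := by
  rw [act_eq]
  exact contDiff_const.add (linL m n).contDiff

theorem lin_lin (m n : ℤ) (u : R4) : lin m n (lin (-m) n u) = u := by
  simp only [lin]
  refine Prod.ext rfl (Prod.ext rfl (Prod.ext ?_ ?_))
  · push_cast
    linear_combination u.2.2.1 * sg_sq n
  · linear_combination u.2.2.2 * sg_sq n

theorem om4_ext {u u' : R4} (h : ∀ v, om4 u v = om4 u' v) : u = u' := by
  have h1 := h (0, 1, 0, 0)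
  have h2 := h (1, 0, 0, 0)
  have h3 := h (0, 0, 0, 1)
  have h4 := h (0, 0, 1, 0)
  simp only [om4] at h1 h2 h3 h4
  exact Prod.ext (by linarith) (Prod.ext (by linarith) (Prod.ext (by linarith) (by linarith)))

theorem rel7_iff {z z' : E7} :
    Rel7 z z' ↔ ∃ (m n a b : ℤ) (c : ℝ), 0 < c ∧ z' = TT m n a b c z :=
  ⟨fun ⟨⟨m, n, a, b, h⟩, c, hc, h'⟩ => ⟨m, n, a, b, c, hc, Prod.ext h h'⟩,
    fun ⟨m, n, a, b, c, hc, h⟩ => ⟨⟨m, n, a, b, congrArg Prod.fst h⟩, c, hc, congrArg Prod.snd h⟩⟩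

theorem TT_ne {z : E7} (hz : z.2 ≠ 0) (m n a b : ℤ) {c : ℝ} (hc : 0 < c) :
    (TT m n a b c z).2 ≠ 0 := smul_ne_zero hc.ne' hz

/-- every point can be moved to the slab `0 ≤ s < 1` -/
theorem exists_slab (u : R4) : ∃ (m n a b : ℤ) (u0 : R4), u0.1 ∈ Ico (0 : ℝ) 1 ∧
    u = act m n a b u0 := by
  obtain ⟨a', b', h⟩ := act_inv (-⌊u.1⌋) 0 0 0
  refine ⟨_, _, a', b', act (-⌊u.1⌋) 0 0 0 u, ?_, (h u).symm⟩
  simp only [act, Int.cast_neg, ← sub_eq_add_neg]
  exact ⟨Int.fract_nonneg _, Int.fract_lt_one _⟩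

end

end Vale.Agent.P265.S
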