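import Vale.Agent.P265.S.Dd

/-! P265 S/Ident (TASK). Helper lemma names start with ident_.
The basic identity S1. Unfold om7; fderiv_AA, fderiv_BB; dot_rot and triple_rot remove the rotation; sphere_alg.
Flat part: ε⁻¹ * (om4 (u1 + ε d1) (u2 + ε d2) - om4 (u1 - ε d1) (u2 - ε d2)) = 2 (om4 d1 u2 - om4 d2 u1), om4_fderiv_DD.
For l' = (t, v): th G l' = fun w => t * th G (1, 0) w + th G (0, v) w (xi_add, xi_smul), so
fderiv (th (pr l2)) w l1 = t2 * fderiv (th (1, 0)) w l1 + fderiv (th (0, u2)) w l1. By fderiv_th and dxi_comm,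
fderiv (th (pr l2)) w l1 - fderiv (th (pr l1)) w l2 is the bracket on the right of sphere_alg. hh = 2 * th (1, 0) (`fderiv_const_mul`). -/

namespace Vale.Agent.P265.S

open scoped ContDiff Quaternion Topology
open Set Filter

noncomputable section

variable {G : W5 → ℍ} {ε : ℝ}

theorem ident_split (hG : IsPath G) {w : W8} (hw : w ∈ Om) (l' l : W8) :
    fderiv ℝ (th G (pr l')) w l =
      l'.1 * fderiv ℝ (th G (1, 0)) w l + fderiv ℝ (th G (0, l'.2.1)) w l := by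
  have e0 : pr l' = l'.1 • ((1, 0) : W5) + (0, l'.2.1) := by
    simp [pr]
  have e : th G (pr l') = fun w => l'.1 * th G (1, 0) w + th G (0, l'.2.1) w := by
    funext w
    rw [e0]
    simp only [th, xi_add, xi_smul, dot, Prod.fst_add, Prod.snd_add, Prod.smul_fst,
      Prod.smul_snd, smul_eq_mul]
    ring
  have h1 : HasFDerivAt (th G (1, 0)) (fderiv ℝ (th G (1, 0)) w) w :=
    ((contDiffAt_th hG _ hw).differentiableAt (by simp)).hasFDerivAt
  have h2 : HasFDerivAt (th G (0, l'.2.1)) (fderiv ℝ (th G (0, l'.2.1)) w) w :=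
    ((contDiffAt_th hG _ hw).differentiableAt (by simp)).hasFDerivAt
  have h3 : HasFDerivAt (fun w => l'.1 * th G (1, 0) w + th G (0, l'.2.1) w) _ w :=
    (h1.const_mul l'.1).add h2
  rw [e, h3.fderiv]
  simp

theorem ident_hh (hG : IsPath G) {w : W8} (hw : w ∈ Om) (l : W8) :
    fderiv ℝ (hh G) w l = 2 * fderiv ℝ (th G (1, 0)) w l := by
  have h1 : HasFDerivAt (th G (1, 0)) (fderiv ℝ (th G (1, 0)) w) w :=
    ((contDiffAt_th hG _ hw).differentiableAt (by simp)).hasFDerivAt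
  have h3 : HasFDerivAt (hh G) _ w := h1.const_mul (2 : ℝ)
  rw [h3.fderiv]
  simp

theorem ident_flat (hε : ε ≠ 0) (u1 u2 d1 d2 : R4) :
    ε⁻¹ * om4 (u1 + ε • d1) (u2 + ε • d2) - ε⁻¹ * om4 (u1 - ε • d1) (u2 - ε • d2) =
      2 * (om4 d1 u2 - om4 d2 u1) := by
  simp only [om4, Prod.fst_add, Prod.snd_add, Prod.fst_sub, Prod.snd_sub, Prod.smul_fst,
    Prod.smul_snd, smul_eq_mul]
  field_simp
  ring

theorem ident_dot_sub (a b c : R3) : dot (a - b) c = dot a c - dot b c := by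
  simp only [dot, Prod.fst_sub, Prod.snd_sub]
  ring

theorem ident (hG : IsPath G) (hε : ε ≠ 0) {w : W8} (hw : w ∈ Om) (l1 l2 : W8) :
    om7 ε⁻¹ (BB G ε w) (fderiv ℝ (BB G ε) w l1) (fderiv ℝ (BB G ε) w l2)
      - om7 ε⁻¹ (AA G ε w) (fderiv ℝ (AA G ε) w l1) (fderiv ℝ (AA G ε) w l2) =
      fderiv ℝ (hh G) w l2 * l1.1 - fderiv ℝ (hh G) w l1 * l2.1 := by
  have hq := hG.unit (pr w)
  have hy : w.2.2 ≠ 0 := hw
  have s := sphere_alg hy l1.2.2 l2.2.2 (xi G (pr w) (pr l1)) (xi G (pr w) (pr l2))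
  have f := ident_flat hε l1.2.1 l2.2.1 (fderiv ℝ (DD G) w l1) (fderiv ℝ (DD G) w l2)
  rw [om4_fderiv_DD hG hw, om4_fderiv_DD hG hw] at f
  have t1 := fderiv_th hG (pr l2) hw l1
  have t2 := fderiv_th hG (pr l1) hw l2
  rw [ident_split hG hw] at t1 t2
  rw [← dxi_comm hG, ident_dot_sub] at s
  rw [fderiv_AA hG hw, fderiv_AA hG hw, fderiv_BB hG hw, fderiv_BB hG hw, ident_hh hG hw,
    ident_hh hG hw]
  simp only [om7, BB, AA, RR, dot_rot hq, triple_rot hq]
  linear_combination s + f + 2 * t1 - 2 * t2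

end

end Vale.Agent.P265.S
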