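import Vale.Agent.P265.S.Defs

/-! P265 S/Slab (TASK). Helper lemma names start with slab_.
Bounds on the slab. slab_bdd: F is bounded on the compact set
Icc 0 1 ×ˢ ((Icc (-2) 3 ×ˢ Icc 0 2 ×ˢ Icc 0 1 ×ˢ Icc 0 1) ×ˢ sphere 0 1) ⊆ Om (`IsCompact.exists_bound_of_continuousOn`); move a point there with
k = -⌊t / 2⌋, a = -⌊x⌋, b = -⌊y⌋, c = ‖y‖⁻¹ and τ = 0 or 1. Eqv.bdd: act 0 (2 k) a b u = u + (0, 2 k, a, b), lin 0 (2 k) = id (sg (2 k) = 1).
Apply slab_bdd to D and to F w = fderiv (fun v => D (w.1, v, w.2.2)) w.2.1, which on Om is (fderiv D w).comp (inclusion of R4)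
(`ContDiffOn.continuousOn_fderiv_of_isOpen`); invariance by funext and `fderiv_comp_add_right`. -/

namespace Vale.Agent.P265.S

open scoped ContDiff Quaternion Topology
open Set Filter

noncomputable section

theorem slab_bdd {B : Type} [NormedAddCommGroup B] {F : W8 → B} (hF : ContinuousOn F Om)
    (h1 : ∀ (τ : ℝ) (u : R4) (y : R3) (k a b : ℤ) (c : ℝ), y ≠ 0 → 0 < c →
      F (τ, u + ((0 : ℝ), (2 * k : ℝ), (a : ℝ), (b : ℝ)), c • y) = F (τ, u, y))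
    (lo : ∀ τ z, τ ≤ 0 → F (τ, z) = F (0, z)) (hi : ∀ τ z, 1 ≤ τ → F (τ, z) = F (1, z)) :
    ∃ C : ℝ, ∀ (τ : ℝ) (u : R4) (y : R3), y ≠ 0 → u.1 ∈ Icc (-2 : ℝ) 3 → ‖F (τ, u, y)‖ ≤ C := by
  have hK : IsCompact (Icc (0 : ℝ) 1 ×ˢ (Icc ((-2, 0, 0, 0) : R4) (3, 2, 1, 1) ×ˢ
      Metric.sphere (0 : R3) 1)) := isCompact_Icc.prod (isCompact_Icc.prod (isCompact_sphere _ _))
  obtain ⟨C, hC⟩ := hK.exists_bound_of_continuousOn (hF.mono fun w hw h => by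
    have := hw.2.2
    rw [h] at this
    simp at this)
  have key : ∀ τ ∈ Icc (0 : ℝ) 1, ∀ (u : R4) (y : R3), y ≠ 0 → u.1 ∈ Icc (-2 : ℝ) 3 →
      ‖F (τ, u, y)‖ ≤ C := fun τ hτ u y hy hu => by
    have n0 := norm_pos_iff.2 hy
    rw [← h1 τ u y (-⌊u.2.1 / 2⌋) (-⌊u.2.2.1⌋) (-⌊u.2.2.2⌋) ‖y‖⁻¹ hy (inv_pos.2 n0)]
    refine hC _ ⟨hτ, ?_, by simp [norm_smul, n0.ne']⟩
    simp only [mem_Icc, Prod.le_def, Prod.fst_add, Prod.snd_add, Int.cast_neg]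
    have := Int.floor_le (u.2.1 / 2)
    have := Int.lt_floor_add_one (u.2.1 / 2)
    have := Int.floor_le u.2.2.1
    have := Int.lt_floor_add_one u.2.2.1
    have := Int.floor_le u.2.2.2
    have := Int.lt_floor_add_one u.2.2.2
    refine ⟨⟨?_, ?_, ?_, ?_⟩, ?_, ?_, ?_, ?_⟩ <;> linarith [hu.1, hu.2]
  refine ⟨C, fun τ u y hy hu => ?_⟩
  rcases le_total τ 0 with h | h
  · rw [lo τ _ h]
    exact key 0 ⟨le_rfl, zero_le_one⟩ u y hy hu
  rcases le_total 1 τ with h' | h'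
  · rw [hi τ _ h']
    exact key 1 ⟨zero_le_one, le_rfl⟩ u y hy hu
  · exact key τ ⟨h, h'⟩ u y hy hu

theorem Eqv.bdd {D : W8 → R4} (h : Eqv D) : ∃ C : ℝ, 0 < C ∧ Bdd D C := by
  have e : ∀ (τ : ℝ) (u : R4) (y : R3) (k a b : ℤ) (c : ℝ), y ≠ 0 → 0 < c →
      D (τ, u + ((0 : ℝ), (2 * k : ℝ), (a : ℝ), (b : ℝ)), c • y) = D (τ, u, y) :=
    fun τ u y k a b c hy hc => by
      have s : sg (2 * k) = 1 := (even_two_mul k).neg_one_zpow
      have := h.eqv τ (u, y) 0 (2 * k) a b c hy hc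
      simp only [TT, act, lin, s] at this
      convert this using 4 <;> simp [Prod.ext_iff]
  obtain ⟨C1, h1⟩ := slab_bdd h.smooth.continuousOn e h.lo h.hi
  obtain ⟨C2, h2⟩ := slab_bdd (F := fun w => fderiv ℝ (fun v => D (w.1, v, w.2.2)) w.2.1)
    (((h.smooth.continuousOn_fderiv_of_isOpen isOpen_Om (by simp)).clm_comp
      (continuousOn_const (c := (ContinuousLinearMap.inr ℝ ℝ E7).comp
        (ContinuousLinearMap.inl ℝ R4 R3)))).congr fun w hw =>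
      (((h.smooth.contDiffAt (Om_nhds hw)).differentiableAt (by simp)).hasFDerivAt.comp w.2.1
        ((hasFDerivAt_prodMk_right w.1 _).comp _ (hasFDerivAt_prodMk_left w.2.1 w.2.2))).fderiv)
    (fun τ u y k a b c hy hc => by
      simp only [← fderiv_comp_add_right, e τ _ y k a b c hy hc])
    (fun τ z hτ => by simp only [h.lo τ _ hτ]) fun τ z hτ => by simp only [h.hi τ _ hτ]
  refine ⟨|C1| + |C2| + 1, by positivity, fun τ u y hy hu => ⟨?_, ?_⟩⟩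
  · linarith [h1 τ u y hy hu, le_abs_self C1, abs_nonneg C2]
  · linarith [h2 τ u y hy hu, le_abs_self C2, abs_nonneg C1]

end

end Vale.Agent.P265.S
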