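import Vale.Agent.P265.S.Defs

/-! P265 S/Smooth (TASK). Helper lemma names start with smooth_.
Smoothness of the inverse. inv_smooth: the injective derivative is an equivalence (`ContinuousLinearMap.toLinearMap`,
`LinearEquiv.ofInjectiveEndo`, `LinearEquiv.toContinuousLinearEquiv`); `ContDiffAt.to_localInverse`, `ContDiffAt.localInverse_apply_image`,
`HasStrictFDerivAt.eventually_right_inverse`; Ψ equals the local inverse near Φ x.
Inv.smooth: Φ w = (w.1, w.2.1 + e • D w, w.2.2), Ψ w = (w.1, ψ w, w.2.2). At w = (τ, u, y) with u in the slab the derivative is injective: the kernel has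
first and last component 0, fderiv D w (0, a, 0) = fderiv (fun v => D (τ, v, y)) u a, so ‖a‖ ≤ ‖a‖ / 4. In general u = ψ w = act g u0 (exists_slab), g' from act_inv,
ψ (τ, v, y) = act g (ψ (τ, act g' v, y)) for y ≠ 0 (Inv.act, or with the two directions exchanged), contDiff_act. -/

namespace Vale.Agent.P265.S

open scoped ContDiff Quaternion Topology
open Set Filter

noncomputable section

theorem inv_smooth {E : Type} [NormedAddCommGroup E] [NormedSpace ℝ E] [FiniteDimensional ℝ E]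
    {Φ Ψ : E → E} {x : E} (hΦ : ContDiffAt ℝ ∞ Φ x) (hi : Function.Injective (fderiv ℝ Φ x))
    (h : ∀ᶠ x' in 𝓝 x, Ψ (Φ x') = x') : ContDiffAt ℝ ∞ Ψ (Φ x) := by
  have := FiniteDimensional.complete ℝ E
  let A : E ≃L[ℝ] E :=
    (LinearEquiv.ofInjectiveEndo (fderiv ℝ Φ x).toLinearMap hi).toContinuousLinearEquiv
  have hd : HasFDerivAt Φ (A : E →L[ℝ] E) x := by
    have e : (A : E →L[ℝ] E) = fderiv ℝ Φ x := ContinuousLinearMap.ext fun _ => rfl
    rw [e]
    exact (hΦ.differentiableAt (by simp)).hasFDerivAt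
  exact (hΦ.to_localInverse hd (by simp)).congr_of_eventuallyEq
    ((hΦ.hasStrictFDerivAt' hd (by simp)).localInverse_unique h)

variable {D ψ : W8 → R4} {C e : ℝ}

theorem Inv.act (hψ : Inv D e ψ) (h : Eqv D) (τ : ℝ) (v : R4) {y : R3} (hy : y ≠ 0) (m n a b : ℤ) :
    ψ (τ, act m n a b v, y) = act m n a b (ψ (τ, v, y)) := by
  have h1 := h.eqv τ (ψ (τ, v, y), y) m n a b 1 hy one_pos
  simp only [TT, one_smul] at h1
  have h2 := hψ.left τ (P265.act m n a b (ψ (τ, v, y))) y hy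
  rwa [h1, ← linL_apply, ← map_smul, linL_apply, ← act_add_lin, hψ.right τ v y hy] at h2

theorem smooth_inj (h : Eqv D) (hb : Bdd D C) (he : |e| * C ≤ 1 / 4) {w : W8} (hw : w ∈ Om)
    (hs : w.2.1.1 ∈ Icc (-2 : ℝ) 3) :
    Function.Injective (fderiv ℝ (fun w : W8 => (w.1, w.2.1 + e • D w, w.2.2)) w) := by
  obtain ⟨τ, u, y⟩ := w
  have hD : HasFDerivAt D (fderiv ℝ D (τ, u, y)) (τ, u, y) :=
    ((h.smooth.contDiffAt (Om_nhds hw)).differentiableAt (by simp)).hasFDerivAt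
  have h1 : HasFDerivAt (fun w : W8 => (w.1, w.2.1 + e • D w, w.2.2))
      ((ContinuousLinearMap.fst ℝ ℝ E7).prod ((uL + e • fderiv ℝ D (τ, u, y)).prod yL)) (τ, u, y) :=
    hasFDerivAt_fst.prodMk ((uL.hasFDerivAt.add (hD.const_smul e)).prodMk yL.hasFDerivAt)
  have h2 : HasFDerivAt (fun v : R4 => D (τ, v, y)) ((fderiv ℝ D (τ, u, y)).comp
      ((0 : R4 →L[ℝ] ℝ).prod ((ContinuousLinearMap.id ℝ R4).prod (0 : R4 →L[ℝ] R3)))) u :=
    HasFDerivAt.comp (f := fun v : R4 => ((τ, v, y) : W8)) u hD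
      ((hasFDerivAt_const τ u).prodMk ((hasFDerivAt_id u).prodMk (hasFDerivAt_const y u)))
  rw [h1.fderiv]
  refine (injective_iff_map_eq_zero _).2 ?_
  rintro ⟨t, a, z⟩ h0
  obtain rfl : t = 0 := congrArg Prod.fst h0
  obtain rfl : z = 0 := congrArg (fun p : W8 => p.2.2) h0
  have h3 : a + e • fderiv ℝ D (τ, u, y) (0, a, 0) = 0 := congrArg (fun p : W8 => p.2.1) h0
  have h4 : ‖fderiv ℝ D (τ, u, y) (0, a, 0)‖ ≤ C * ‖a‖ := by
    have := (fderiv ℝ (fun v => D (τ, v, y)) u).le_of_opNorm_le (hb τ u y hw hs).2 a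
    rwa [h2.fderiv] at this
  have h5 : ‖a‖ = |e| * ‖fderiv ℝ D (τ, u, y) (0, a, 0)‖ := by
    rw [← Real.norm_eq_abs, ← norm_smul, ← norm_neg (e • _), ← eq_neg_of_add_eq_zero_left h3]
  have h6 : ‖a‖ = 0 := by
    have := mul_le_mul_of_nonneg_left h4 (abs_nonneg e)
    nlinarith [norm_nonneg a, mul_le_mul_of_nonneg_right he (norm_nonneg a)]
  rw [norm_eq_zero.1 h6]
  rfl

theorem smooth_slab (hψ : Inv D e ψ) (h : Eqv D) (hb : Bdd D C) (he : |e| * C ≤ 1 / 4) {w : W8}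
    (hw : w ∈ Om) (hs : (ψ w).1 ∈ Icc (-2 : ℝ) 3) : ContDiffAt ℝ ∞ ψ w := by
  obtain ⟨τ, v, y⟩ := w
  have hx : ((τ, ψ (τ, v, y), y) : W8) ∈ Om := hw
  have h1 := inv_smooth (Φ := fun w : W8 => (w.1, w.2.1 + e • D w, w.2.2))
    (Ψ := fun w : W8 => (w.1, ψ w, w.2.2)) (x := (τ, ψ (τ, v, y), y))
    (contDiffAt_fst.prodMk ((uL.contDiff.contDiffAt.add
      ((h.smooth.contDiffAt (Om_nhds hx)).const_smul e)).prodMk yL.contDiff.contDiffAt))
    (smooth_inj h hb he hx hs)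
    (by
      filter_upwards [Om_nhds hx] with p hp
      obtain ⟨s, u, z⟩ := p
      simp only [hψ.left s u z hp])
  simp only [hψ.right τ v y hw] at h1
  exact h1.snd.fst

theorem Inv.smooth (hψ : Inv D e ψ) (h : Eqv D) (hb : Bdd D C) (he : |e| * C ≤ 1 / 4) :
    ContDiffOn ℝ ∞ ψ Om := by
  rintro ⟨τ, v, y⟩ hw
  obtain ⟨m, n, a, b, u0, h0, h1⟩ := exists_slab (ψ (τ, v, y))
  obtain ⟨a', b', h2⟩ := act_inv m n a b
  obtain ⟨a'', b'', h3⟩ := act_inv (-m) (-n) a' b'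
  have h4 : ContDiffAt ℝ ∞ ψ (τ, P265.act (-m) (-n) a' b' v, y) := by
    refine smooth_slab hψ h hb he hw ?_
    rw [hψ.act h τ v hw, h1, h2]
    exact ⟨by linarith [h0.1], by linarith [h0.2]⟩
  have h5 : ContDiff ℝ ∞ fun w : W8 => ((w.1, P265.act (-m) (-n) a' b' w.2.1, w.2.2) : W8) :=
    contDiff_fst.prodMk (((contDiff_act _ _ _ _).comp uL.contDiff).prodMk yL.contDiff)
  have h6 := (contDiff_act (- -m) (- -n) a'' b'').contDiffAt.comp ((τ, v, y) : W8)
    (ContDiffAt.comp ((τ, v, y) : W8) h4 h5.contDiffAt)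
  refine (h6.congr_of_eventuallyEq ?_).contDiffWithinAt
  filter_upwards [Om_nhds hw] with p hp
  obtain ⟨s, u, z⟩ := p
  simp only [Function.comp_apply, hψ.act h s u hp, h3]

end

end Vale.Agent.P265.S
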