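import Vale.Agent.P265.S.Equi
import Vale.Agent.P265.S.Slab
import Vale.Agent.P265.S.Bij
import Vale.Agent.P265.S.Smooth

/-! P265 S/Pack (TASK). Helper lemma names start with pack_.
exists_inv: ψ w = Function.invFun (fun u => u + e • D (w.1, u, w.2.2)) w.2.1, Eqv.inj, Eqv.surj.
exists_pack: C1, C2 from Eqv.bdd for DD and DD ∘ UU, ε = 1 / (4 (C1 + C2)); ψA inverts with e = -ε, ψB with e = ε;
Ai w = (w.1, ψA w, w.2.2), Bi w = UU (w.1, ψB w, w.2.2); rot_rot_star, rot_star_rot; UU (τ, u, RR (τ, u, y)) = (τ, u, y). -/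

namespace Vale.Agent.P265.S

open scoped ContDiff Quaternion Topology
open Set Filter

noncomputable section

theorem exists_inv {D : W8 → R4} {C e : ℝ} (h : Eqv D) (hb : Bdd D C) (he : |e| * C ≤ 1 / 4) :
    ∃ ψ, Inv D e ψ ∧ ContDiffOn ℝ ∞ ψ Om := by
  have hI : Inv D e fun w => Function.invFun (fun u => u + e • D (w.1, u, w.2.2)) w.2.1 :=
    ⟨fun τ u y hy => Function.leftInverse_invFun (h.inj hb he τ hy) u,
      fun τ v y hy => Function.rightInverse_invFun (h.surj hb he τ hy) v⟩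
  exact ⟨_, hI, hI.smooth h hb he⟩

theorem pack_sm {ψ : W8 → R4} (h : ContDiffOn ℝ ∞ ψ Om) :
    ContDiffOn ℝ ∞ (fun w : W8 => ((w.1, ψ w, w.2.2) : W8)) Om :=
  contDiffOn_fst.prodMk (h.prodMk yL.contDiff.contDiffOn)

theorem pack_UU {G : W5 → ℍ} (hG : IsPath G) (w : W8) : UU G (w.1, w.2.1, RR G w) = w :=
  Prod.ext rfl (Prod.ext rfl (rot_star_rot (hG.unit _) _))

theorem exists_pack {G : W5 → ℍ} (hG : IsPath G) : ∃ ε Ai Bi, Pack G ε Ai Bi := by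
  obtain ⟨C1, h1, hb1⟩ := (eqv_DD hG).bdd
  obtain ⟨C2, h2, hb2⟩ := (eqv_DU hG).bdd
  obtain ⟨ε, hε, he⟩ : ∃ ε : ℝ, 0 < ε ∧ ε * (C1 + C2) = 1 / 4 :=
    ⟨1 / (4 * (C1 + C2)), by positivity, by field_simp⟩
  have e1 : |ε| * C1 ≤ 1 / 4 := by
    rw [abs_of_pos hε]
    nlinarith [mul_pos hε h2]
  have e2 : |ε| * C2 ≤ 1 / 4 := by
    rw [abs_of_pos hε]
    nlinarith [mul_pos hε h1]
  obtain ⟨a, ha, sa⟩ := exists_inv (e := -ε) (eqv_DD hG) hb1 (by rwa [abs_neg])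
  obtain ⟨b, hb, sb⟩ := exists_inv (eqv_DU hG) hb2 e2
  refine ⟨ε, fun w => (w.1, a w, w.2.2), fun w => UU G (w.1, b w, w.2.2), hε, pack_sm sa,
    (contDiff_UU hG).comp_contDiffOn (pack_sm sb), fun _ => rfl, fun _ => rfl, fun _ => rfl,
    fun w hw => rot_star_ne (hG.unit _) hw, fun w hw => Prod.ext ?_ rfl,
    fun w hw => Prod.ext rfl (Prod.ext ?_ rfl),
    fun w hw => Prod.ext (hb.right w.1 w.2.1 w.2.2 hw) (rot_rot_star (hG.unit _) _),
    fun w hw => ?_, fun w hw hr => (eqv_DD hG).rigid hb1 e1 hε.ne' w.1 w.2.1 hw hr⟩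
  · have h := ha.right w.1 w.2.1 w.2.2 hw
    rwa [neg_smul, ← sub_eq_add_neg] at h
  · have h := ha.left w.1 w.2.1 w.2.2 hw
    rwa [neg_smul, ← sub_eq_add_neg] at h
  · have h := hb.left w.1 w.2.1 (RR G w) (rot_ne (hG.unit _) hw)
    simp only [pack_UU hG] at h
    show UU G (w.1, b (w.1, w.2.1 + ε • DD G w, RR G w), RR G w) = w
    rw [h, pack_UU hG]

end

end Vale.Agent.P265.S
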