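import Vale.Agent.P265.S.Defs

/-! P265 S/Quat (TASK). Helper lemma names start with quat_.
Pure algebra, first part. Work in components: `Prod.ext`, `simp [rot, imv, dot, cross]`
(`Quaternion.re_mul`, `imI_mul`, .., `re_star`, .., `im_re`, ..), `Quaternion.normSq_def'`, then `ring` or
`linear_combination (..) * h`. With N = normSq q: dot (rot a) (rot b) = N ^ 2 * dot a b, the triple product gets N ^ 3,
rot (star q) (rot q y) = N ^ 2 • y (prove these by ring, then put N = 1).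
rot_fix: rot q y - y = 2 r (V × y) + 2 V × (V × y) for r = re q, V = imv q, N = 1; dot with V × y and with y give
r |V × y|² = 0 and |V × y|² = 0; so V × y = 0 and y = (dot y V / dot V V) • V. -/

namespace Vale.Agent.P265.S

open scoped ContDiff Quaternion Topology
open Set Filter

noncomputable section

theorem quat_rot (q : ℍ) (y : R3) : rot q y =
    ((q.re ^ 2 + q.imI ^ 2 - q.imJ ^ 2 - q.imK ^ 2) * y.1 +
        2 * (q.imI * q.imJ - q.re * q.imK) * y.2.1 + 2 * (q.imI * q.imK + q.re * q.imJ) * y.2.2,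
      2 * (q.imI * q.imJ + q.re * q.imK) * y.1 +
        (q.re ^ 2 - q.imI ^ 2 + q.imJ ^ 2 - q.imK ^ 2) * y.2.1 +
        2 * (q.imJ * q.imK - q.re * q.imI) * y.2.2,
      2 * (q.imI * q.imK - q.re * q.imJ) * y.1 + 2 * (q.imJ * q.imK + q.re * q.imI) * y.2.1 +
        (q.re ^ 2 - q.imI ^ 2 - q.imJ ^ 2 + q.imK ^ 2) * y.2.2) := by
  refine Prod.ext ?_ (Prod.ext ?_ ?_) <;>
    simp only [rot, imv, Quaternion.re_mul, Quaternion.imI_mul, Quaternion.imJ_mul,
      Quaternion.imK_mul, Quaternion.re_star, Quaternion.imI_star, Quaternion.imJ_star,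
      Quaternion.imK_star, im_re, im_imI, im_imJ, im_imK] <;> ring

theorem quat_N {q : ℍ} (h : Quaternion.normSq q = 1) :
    q.re ^ 2 + q.imI ^ 2 + q.imJ ^ 2 + q.imK ^ 2 = 1 := by
  rw [← Quaternion.normSq_def', h]

theorem quat_rot_zero (q : ℍ) : rot q 0 = 0 := by
  rw [quat_rot]
  simp

theorem rot_add (q : ℍ) (a b : R3) : rot q (a + b) = rot q a + rot q b := by
  simp only [quat_rot, Prod.fst_add, Prod.snd_add, Prod.mk_add_mk, Prod.mk.injEq]
  refine ⟨by ring, by ring, by ring⟩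

theorem rot_sub (q : ℍ) (a b : R3) : rot q (a - b) = rot q a - rot q b := by
  simp only [quat_rot, Prod.fst_sub, Prod.snd_sub, Prod.mk_sub_mk, Prod.mk.injEq]
  refine ⟨by ring, by ring, by ring⟩

theorem rot_smul (q : ℍ) (c : ℝ) (a : R3) : rot q (c • a) = c • rot q a := by
  simp only [quat_rot, Prod.smul_fst, Prod.smul_snd, Prod.smul_mk, smul_eq_mul, Prod.mk.injEq]
  refine ⟨by ring, by ring, by ring⟩

theorem rot_one (a : R3) : rot 1 a = a := by
  rw [quat_rot]
  simp

theorem dot_rot {q : ℍ} (h : Quaternion.normSq q = 1) (a b : R3) :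
    dot (rot q a) (rot q b) = dot a b := by
  have e : dot (rot q a) (rot q b) =
      (q.re ^ 2 + q.imI ^ 2 + q.imJ ^ 2 + q.imK ^ 2) ^ 2 * dot a b := by
    simp only [quat_rot, dot]
    ring
  rw [e, quat_N h]
  ring

theorem triple_rot {q : ℍ} (h : Quaternion.normSq q = 1) (y a b : R3) :
    dot (rot q y) (cross (rot q a) (rot q b)) = dot y (cross a b) := by
  have e : dot (rot q y) (cross (rot q a) (rot q b)) =
      (q.re ^ 2 + q.imI ^ 2 + q.imJ ^ 2 + q.imK ^ 2) ^ 3 * dot y (cross a b) := by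
    simp only [quat_rot, dot, cross]
    ring
  rw [e, quat_N h]
  ring

theorem rot_star_rot {q : ℍ} (h : Quaternion.normSq q = 1) (a : R3) :
    rot (star q) (rot q a) = a := by
  have e : rot (star q) (rot q a) = (q.re ^ 2 + q.imI ^ 2 + q.imJ ^ 2 + q.imK ^ 2) ^ 2 • a := by
    refine Prod.ext ?_ (Prod.ext ?_ ?_) <;>
      simp only [quat_rot, Quaternion.re_star, Quaternion.imI_star, Quaternion.imJ_star,
        Quaternion.imK_star, Prod.smul_fst, Prod.smul_snd, smul_eq_mul] <;> ring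
  rw [e, quat_N h]
  simp

theorem rot_rot_star {q : ℍ} (h : Quaternion.normSq q = 1) (a : R3) :
    rot q (rot (star q) a) = a := by
  have e : rot q (rot (star q) a) = (q.re ^ 2 + q.imI ^ 2 + q.imJ ^ 2 + q.imK ^ 2) ^ 2 • a := by
    refine Prod.ext ?_ (Prod.ext ?_ ?_) <;>
      simp only [quat_rot, Quaternion.re_star, Quaternion.imI_star, Quaternion.imJ_star,
        Quaternion.imK_star, Prod.smul_fst, Prod.smul_snd, smul_eq_mul] <;> ring
  rw [e, quat_N h]
  simp

theorem rot_ne {q : ℍ} (h : Quaternion.normSq q = 1) {a : R3} (ha : a ≠ 0) : rot q a ≠ 0 := by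
  intro e
  apply ha
  rw [← rot_star_rot h a, e, quat_rot_zero]

theorem rot_star_ne {q : ℍ} (h : Quaternion.normSq q = 1) {a : R3} (ha : a ≠ 0) :
    rot (star q) a ≠ 0 := by
  intro e
  apply ha
  rw [← rot_rot_star h a, e, quat_rot_zero]

theorem rot_fix {q : ℍ} (h : Quaternion.normSq q = 1) (hV : imv q ≠ 0) {y : R3}
    (hy : rot q y = y) : ∃ c : ℝ, y = c • imv q := by
  have hN := quat_N h
  have hp := dot_pos hV
  rw [quat_rot] at hy
  have h1 := congrArg Prod.fst hy
  have h2 := congrArg (fun z => z.2.1) hy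
  have h3 := congrArg (fun z => z.2.2) hy
  simp only [dot, imv] at h1 h2 h3 hp
  obtain ⟨y1, y2, y3⟩ := y
  simp only at h1 h2 h3
  generalize q.re = r at *
  have key : (q.imJ * y3 - q.imK * y2) ^ 2 + (q.imK * y1 - q.imI * y3) ^ 2 +
      (q.imI * y2 - q.imJ * y1) ^ 2 = 0 := by
    linear_combination (-(1 / 2) * y1) * h1 + (-(1 / 2) * y2) * h2 + (-(1 / 2) * y3) * h3 +
      ((1 / 2) * (y1 ^ 2 + y2 ^ 2 + y3 ^ 2)) * hN
  have c1 : q.imJ * y3 - q.imK * y2 = 0 := by
    nlinarith [sq_nonneg (q.imJ * y3 - q.imK * y2), sq_nonneg (q.imK * y1 - q.imI * y3),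
      sq_nonneg (q.imI * y2 - q.imJ * y1)]
  have c2 : q.imK * y1 - q.imI * y3 = 0 := by
    nlinarith [sq_nonneg (q.imJ * y3 - q.imK * y2), sq_nonneg (q.imK * y1 - q.imI * y3),
      sq_nonneg (q.imI * y2 - q.imJ * y1)]
  have c3 : q.imI * y2 - q.imJ * y1 = 0 := by
    nlinarith [sq_nonneg (q.imJ * y3 - q.imK * y2), sq_nonneg (q.imK * y1 - q.imI * y3),
      sq_nonneg (q.imI * y2 - q.imJ * y1)]
  refine ⟨(y1 * q.imI + y2 * q.imJ + y3 * q.imK) /
    (q.imI * q.imI + q.imJ * q.imJ + q.imK * q.imK), ?_⟩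
  have hp' := hp.ne'
  refine Prod.ext ?_ (Prod.ext ?_ ?_) <;>
    simp only [imv, Prod.smul_fst, Prod.smul_snd, smul_eq_mul] <;>
    rw [div_mul_eq_mul_div, eq_div_iff hp']
  · linear_combination q.imK * c2 - q.imJ * c3
  · linear_combination q.imI * c3 - q.imK * c1
  · linear_combination q.imJ * c1 - q.imI * c2

theorem rot_scal {q : ℍ} (h : Quaternion.normSq q = 1) {y : R3} (hy : y ≠ 0) {c : ℝ} (hc : 0 < c)
    (e : rot q y = c • y) : rot q y = y := by
  have h1 := dot_rot h y y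
  have hp := dot_pos hy
  rw [e] at h1
  have h2 : (c ^ 2 - 1) * dot y y = 0 := by
    simp only [dot, Prod.smul_fst, Prod.smul_snd, smul_eq_mul] at h1 ⊢
    linear_combination h1
  have h3 : c ^ 2 - 1 = 0 := (mul_eq_zero.1 h2).resolve_right hp.ne'
  have h4 : c = 1 := by nlinarith
  rw [e, h4, one_smul]

end

end Vale.Agent.P265.S
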