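import Vale.Agent.P265.S.Defs

/-! P265 S/QuatB (TASK). Helper lemma names start with quatb_.
Pure algebra, second part: q is a unit quaternion, p a tangent vector at q.
Put x = imv (star q * p); then star q * p = im x (ext, the real part is 0) and p = q * im x
(`Quaternion.self_mul_star`, `Quaternion.star_mul_self`: q * star q = normSq q = 1). So obtain x with p = q * im x, substitute,
use star (q * im x) = - im x * star q, star q * (q * im x) = im x, imv (im x) = x; then each claim is a polynomial identity
in the components of q, x, y (ring, or linear_combination with a multiple of normSq q = 1, `Quaternion.normSq_def'`).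
im a * im b - im b * im a = im (2 • cross a b). -/

namespace Vale.Agent.P265.S

open scoped ContDiff Quaternion Topology
open Set Filter

noncomputable section

variable {q p p' : ℍ}

theorem quatb_one (h : Quaternion.normSq q = 1) : q * star q = 1 ∧ star q * q = 1 := by
  rw [Quaternion.self_mul_star, Quaternion.star_mul_self, h]
  exact ⟨rfl, rfl⟩

theorem quatb_ex (h : Quaternion.normSq q = 1) (hp : (star q * p).re = 0) :
    ∃ x : R3, p = q * im x ∧ imv (star q * p) = x := by
  refine ⟨imv (star q * p), ?_, rfl⟩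
  have e : im (imv (star q * p)) = star q * p := Quaternion.ext _ _ hp.symm rfl rfl rfl
  rw [e, ← mul_assoc, (quatb_one h).1, one_mul]

theorem quatb_sq (h : Quaternion.normSq q = 1) :
    q.re ^ 2 + q.imI ^ 2 + q.imJ ^ 2 + q.imK ^ 2 = 1 := by
  rw [← Quaternion.normSq_def', h]

theorem rot_der (h : Quaternion.normSq q = 1) (hp : (star q * p).re = 0) (y a : R3) :
    imv (p * im y * star q + q * im a * star q + q * im y * star p) =
      rot q (a + (2 : ℝ) • cross (imv (star q * p)) y) := by
  obtain ⟨x, rfl, hx⟩ := quatb_ex h hp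
  rw [hx]
  refine Prod.ext ?_ (Prod.ext ?_ ?_) <;> simp [rot, imv, cross] <;> ring

theorem xi_comm (h : Quaternion.normSq q = 1) (hp : (star q * p).re = 0)
    (hp' : (star q * p').re = 0) : imv (star p * p') - imv (star p' * p) =
      (-2 : ℝ) • cross (imv (star q * p)) (imv (star q * p')) := by
  obtain ⟨x, rfl, hx⟩ := quatb_ex h hp
  obtain ⟨x', rfl, hx'⟩ := quatb_ex h hp'
  rw [hx, hx']
  have e : ∀ u v : R3, star (q * im u) * (q * im v) = star (im u) * im v := fun u v => by
    rw [star_mul, mul_assoc, ← mul_assoc (star q), (quatb_one h).2, one_mul]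
  rw [e, e]
  refine Prod.ext ?_ (Prod.ext ?_ ?_) <;> simp [imv, cross] <;> ring

theorem xi_dot (h : Quaternion.normSq q = 1) (hp : (star q * p).re = 0) :
    dot (imv (star q * p)) (imv q) = -p.re := by
  obtain ⟨x, rfl, hx⟩ := quatb_ex h hp
  rw [hx]
  simp [imv, dot]
  ring

theorem rot_imv (h : Quaternion.normSq q = 1) (hp : (star q * p).re = 0) :
    rot q (imv p + (2 : ℝ) • cross (imv (star q * p)) (imv q)) = imv p := by
  obtain ⟨x, rfl, hx⟩ := quatb_ex h hp
  rw [hx]
  have h2 := quatb_sq h
  refine Prod.ext ?_ (Prod.ext ?_ ?_) <;> simp [rot, imv, cross]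
  · linear_combination (q.re * x.1 + q.imJ * x.2.2 - q.imK * x.2.1) * h2
  · linear_combination (q.re * x.2.1 - q.imI * x.2.2 + q.imK * x.1) * h2
  · linear_combination (q.re * x.2.2 + q.imI * x.2.1 - q.imJ * x.1) * h2

theorem xi_pole (h : Quaternion.normSq q = 1) (hV : imv q = 0) (p : ℍ) :
    q.re ≠ 0 ∧ imv (star q * p) = q.re • imv p := by
  have h2 := quatb_sq h
  have h1 : q.imI = 0 := congrArg Prod.fst hV
  have h3 : q.imJ = 0 := congrArg (fun z : R3 => z.2.1) hV
  have h4 : q.imK = 0 := congrArg (fun z : R3 => z.2.2) hV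
  refine ⟨fun h0 => ?_, ?_⟩
  · rw [h0, h1, h3, h4] at h2
    norm_num at h2
  · refine Prod.ext ?_ (Prod.ext ?_ ?_) <;> simp [imv, h1, h3, h4]

/-- the algebra of the sphere part of the identity -/
theorem sphere_alg {y : R3} (hy : y ≠ 0) (a b x x' : R3) :
    dot y (cross (a + (2 : ℝ) • cross x y) (b + (2 : ℝ) • cross x' y)) / √(dot y y) ^ 3
      - dot y (cross a b) / √(dot y y) ^ 3 =
      -2 * (dot ((-2 : ℝ) • cross x x') (nv y) + dot x' (dnv y a) - dot x (dnv y b)) := by
  have hp := dot_pos hy
  have hs : 0 < √(dot y y) := Real.sqrt_pos.2 hp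
  have e : (√(dot y y))⁻¹ = dot y y / √(dot y y) ^ 3 := by
    have h2 : √(dot y y) ^ 2 = dot y y := Real.sq_sqrt hp.le
    field_simp
    exact h2
  unfold nv dnv
  rw [e]
  generalize √(dot y y) ^ 3 = t
  simp only [dot, cross, Prod.fst_add, Prod.snd_add, Prod.smul_fst, Prod.smul_snd, smul_eq_mul,
    Prod.fst_sub, Prod.snd_sub]
  ring

end

end Vale.Agent.P265.S
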