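import Vale.Agent.P265.S.QuatB

/-! P265 S/Xi (TASK). Helper lemma names start with xi_.
Calculus of xi. xi_re: differentiate star (G p) * G p = 1 (`Quaternion.star_mul_self`, hG.unit): with
`HasFDerivAt.mul'` and stL, star (dG l) * G + star G * dG l = 0, and the first term is the star of the second.
xi G p l = imvL (stL (G p) * fderiv G p l); `ContDiff.fderiv_right`, `ContDiff.clm_apply`.
dxi_eq: `fderiv_clm_apply`; dxi_comm: the second derivative of G is symmetric (`ContDiffAt.isSymmSndFDerivAt`), xi_comm.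
xi_act: (fun p => G (p.1, act p.2)) = G by hG.inv, chain rule with hasFDerivAt_act.
xi_lo, xi_hi: G = 1 near p; G = fun p => G (1, p.2) near p and near (1, u) (`Filter.EventuallyEq.fderiv_eq`).
fderiv_slice: chain rule with u ↦ (1, u). -/

namespace Vale.Agent.P265.S

open scoped ContDiff Quaternion Topology
open Set Filter

noncomputable section

variable {G : W5 → ℍ}

theorem xi_diff (hG : IsPath G) (p : W5) : HasFDerivAt G (fderiv ℝ G p) p :=
  (hG.smooth.differentiable (by simp) p).hasFDerivAt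

theorem xi_mul {f g : W5 → ℍ} {f' g' : W5 →L[ℝ] ℍ} {p : W5} (hf : HasFDerivAt f f' p)
    (hg : HasFDerivAt g g' p) (l : W5) :
    fderiv ℝ (fun p => star (f p) * g p) p l = star (f p) * g' l + star (f' l) * g p := by
  have h : HasFDerivAt (fun p => star (f p) * g p) _ p := (stL.hasFDerivAt.comp p hf).mul' hg
  rw [h.fderiv]
  rfl

theorem xi_sm (hG : IsPath G) : ContDiff ℝ ∞ (fderiv ℝ G) := hG.smooth.fderiv_right (by simp)

theorem xi_dxi (hG : IsPath G) (p l l' : W5) : dxi G p l l' =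
    imv (star (G p) * fderiv ℝ (fderiv ℝ G) p l l') +
      imv (star (fderiv ℝ G p l) * fderiv ℝ G p l') := by
  have h1 : HasFDerivAt (fderiv ℝ G) (fderiv ℝ (fderiv ℝ G) p) p :=
    ((xi_sm hG).differentiable (by simp) p).hasFDerivAt
  have h2 : HasFDerivAt (fun p => fderiv ℝ G p l') ((fderiv ℝ (fderiv ℝ G) p).flip l') p := by
    simpa using h1.clm_apply (hasFDerivAt_const l' p)
  have h3 : DifferentiableAt ℝ (fun p => star (G p) * fderiv ℝ G p l') p :=
    ((stL.hasFDerivAt.comp p (xi_diff hG p)).mul' h2).differentiableAt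
  have h4 : HasFDerivAt (fun p => xi G p l') _ p := imvL.hasFDerivAt.comp p h3.hasFDerivAt
  unfold dxi
  rw [h4.fderiv, ContinuousLinearMap.comp_apply, xi_mul (xi_diff hG p) h2, map_add]
  rfl

theorem xi_sl (hG : IsPath G) (τ : ℝ) (u : R4) :
    HasFDerivAt (fun u => G (τ, u)) ((fderiv ℝ G (τ, u)).comp (ContinuousLinearMap.inr ℝ ℝ R4)) u :=
  (xi_diff hG (τ, u)).comp u (hasFDerivAt_prodMk_right τ u)

theorem xi_re (hG : IsPath G) (p l : W5) : (star (G p) * fderiv ℝ G p l).re = 0 := by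
  have h := xi_mul (xi_diff hG p) (xi_diff hG p) l
  have e : (fun p => star (G p) * G p) = fun _ => (1 : ℍ) := funext fun p => by
    rw [Quaternion.star_mul_self, hG.unit p, Quaternion.coe_one]
  rw [e, fderiv_fun_const] at h
  have h2 := congrArg (fun q : ℍ => q.re) h
  simp at h2 ⊢
  linarith

theorem xi_add (p l l' : W5) : xi G p (l + l') = xi G p l + xi G p l' := by
  unfold xi
  rw [map_add, mul_add]
  rfl

theorem xi_smul (p : W5) (c : ℝ) (l : W5) : xi G p (c • l) = c • xi G p l := by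
  unfold xi
  rw [map_smul, mul_smul_comm]
  rfl

theorem contDiff_xi (hG : IsPath G) (l : W5) : ContDiff ℝ ∞ fun p => xi G p l := by
  exact imvL.contDiff.comp ((stL.contDiff.comp hG.smooth).mul
    ((xi_sm hG).clm_apply contDiff_const))

theorem dxi_comm (hG : IsPath G) (p l l' : W5) :
    dxi G p l l' - dxi G p l' l = (-2 : ℝ) • cross (xi G p l) (xi G p l') := by
  have hs : IsSymmSndFDerivAt ℝ G p := hG.smooth.contDiffAt.isSymmSndFDerivAt (by
    rw [minSmoothness_of_isRCLikeNormedField]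
    exact WithTop.coe_le_coe.2 (le_top : (2 : ℕ∞) ≤ ⊤))
  rw [xi_dxi hG, xi_dxi hG, hs l l', add_sub_add_left_eq_sub]
  exact xi_comm (hG.unit p) (xi_re hG p l) (xi_re hG p l')

theorem xi_act (hG : IsPath G) (τ t : ℝ) (u v : R4) (m n a b : ℤ) :
    xi G (τ, act m n a b u) (t, lin m n v) = xi G (τ, u) (t, v) := by
  have r : ∀ τ u, G (τ, act m n a b u) = G (τ, u) := fun τ u => hG.inv τ u _ ⟨m, n, a, b, rfl⟩
  have h0 : HasFDerivAt (fun p : W5 => act m n a b p.2) _ (τ, u) :=
    HasFDerivAt.comp (f := Prod.snd) (τ, u) (hasFDerivAt_act m n a b u) hasFDerivAt_snd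
  have h1 : HasFDerivAt (fun p : W5 => ((p.1, act m n a b p.2) : W5)) _ (τ, u) :=
    hasFDerivAt_fst.prodMk h0
  have h2 : HasFDerivAt (fun p : W5 => G (p.1, act m n a b p.2)) _ (τ, u) :=
    (xi_diff hG (τ, act m n a b u)).comp (τ, u) h1
  have e : (fun p : W5 => G (p.1, act m n a b p.2)) = G := funext fun p => r p.1 p.2
  rw [e] at h2
  unfold xi
  rw [h2.fderiv, r]
  rfl

theorem xi_lo (hG : IsPath G) {τ : ℝ} (h : τ < 1 / 10) (u : R4) (l : W5) : xi G (τ, u) l = 0 := by
  have e : G =ᶠ[𝓝 (τ, u)] fun _ => 1 :=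
    (continuous_fst.continuousAt.eventually (gt_mem_nhds h)).mono fun p hp => hG.start p.1 p.2 hp.le
  unfold xi
  rw [e.fderiv_eq, fderiv_fun_const]
  simp [imv]

theorem xi_hi (hG : IsPath G) {τ : ℝ} (h : 9 / 10 < τ) (u : R4) (t : ℝ) (v : R4) :
    xi G (τ, u) (t, v) = xi G (1, u) (0, v) := by
  have e : G =ᶠ[𝓝 (τ, u)] fun p => G (1, p.2) :=
    (continuous_fst.continuousAt.eventually (lt_mem_nhds h)).mono fun p hp => hG.stop p.1 p.2 hp.le
  have h2 : HasFDerivAt (fun p : W5 => G (1, p.2)) _ (τ, u) :=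
    HasFDerivAt.comp (f := Prod.snd) (τ, u) (xi_sl hG 1 u) hasFDerivAt_snd
  unfold xi
  rw [e.fderiv_eq, h2.fderiv, hG.stop τ u h.le]
  rfl

theorem fderiv_slice (hG : IsPath G) {B : Type} [NormedAddCommGroup B] [NormedSpace ℝ B]
    (L : ℍ →L[ℝ] B) (u v : R4) :
    fderiv ℝ (fun u => L (G (1, u))) u v = L (fderiv ℝ G (1, u) (0, v)) := by
  have h : HasFDerivAt (fun u => L (G (1, u))) _ u := L.hasFDerivAt.comp u (xi_sl hG 1 u)
  rw [h.fderiv]
  rfl

end

end Vale.Agent.P265.S
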