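import Vale.Agent.P265.S.Quat
import Vale.Agent.P265.S.Xi

/-! P265 S/Th (TASK). Helper lemma names start with th_.
Calculus of nv, th, RR. nv: `ContDiffAt.sqrt`, `ContDiffAt.inv`, contDiff_dot, dot_pos; `HasFDerivAt.sqrt`,
fderiv_dot. pr = prL, w.2.2 = yL w. fderiv_th: fderiv_dot and the chain rule. RR w = imvL (G (pr w) * imL (yL w) * stL (G (pr w))),
`HasFDerivAt.mul'` twice, rot_der with xi_re. -/

namespace Vale.Agent.P265.S

open scoped ContDiff Quaternion Topology
open Set Filter

noncomputable section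

variable {G : W5 → ℍ}

theorem nv_smul {c : ℝ} (hc : 0 < c) (y : R3) : nv (c • y) = nv y := by
  have e : dot (c • y) (c • y) = c ^ 2 * dot y y := by
    simp only [dot, Prod.smul_fst, Prod.smul_snd, smul_eq_mul]
    ring
  rw [nv, nv, e, Real.sqrt_mul (sq_nonneg c), Real.sqrt_sq hc.le, smul_smul, mul_inv,
    mul_right_comm, inv_mul_cancel₀ hc.ne', one_mul]

theorem contDiffAt_nv {y : R3} (hy : y ≠ 0) : ContDiffAt ℝ ∞ nv y := by
  have h1 : ContDiffAt ℝ ∞ (fun y : R3 => dot y y) y := contDiff_dot contDiffAt_id contDiffAt_id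
  exact ((h1.sqrt (dot_pos hy).ne').inv (Real.sqrt_pos.2 (dot_pos hy)).ne').smul contDiffAt_id

theorem fderiv_nv {y : R3} (hy : y ≠ 0) (a : R3) : fderiv ℝ nv y a = dnv y a := by
  have h1 : DifferentiableAt ℝ (fun y : R3 => dot y y) y :=
    (contDiff_dot contDiffAt_id contDiffAt_id).differentiableAt (by simp)
  have p := Real.sqrt_pos.2 (dot_pos hy)
  have h2 := (hasFDerivAt_inv p.ne').comp y (h1.hasFDerivAt.sqrt (dot_pos hy).ne')
  have h3 : HasFDerivAt nv _ y := h2.smul (hasFDerivAt_id y)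
  have h4 : fderiv ℝ (fun y : R3 => dot y y) y a = 2 * dot y a := by
    have := fderiv_dot (f := id) (g := id) (x := y) differentiableAt_id differentiableAt_id a
    simp only [id, fderiv_id, ContinuousLinearMap.id_apply] at this
    rw [this, dot_comm a y]
    ring
  rw [h3.fderiv, dnv, sub_eq_add_neg, ← neg_smul]
  simp only [ContinuousLinearMap.add_apply, ContinuousLinearMap.smul_apply,
    ContinuousLinearMap.id_apply, ContinuousLinearMap.smulRight_apply,
    ContinuousLinearMap.comp_apply, ContinuousLinearMap.toSpanSingleton_apply, h4, smul_eq_mul,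
    Function.comp_apply, id]
  congr 2
  field_simp

theorem contDiffAt_th (hG : IsPath G) (l : W5) {w : W8} (hw : w ∈ Om) :
    ContDiffAt ℝ ∞ (th G l) w := by
  have h1 : ContDiffAt ℝ ∞ (fun w : W8 => xi G (pr w) l) w :=
    ((contDiff_xi hG l).comp prL.contDiff).contDiffAt
  have h2 : ContDiffAt ℝ ∞ (fun w : W8 => nv w.2.2) w :=
    (contDiffAt_nv (y := yL w) hw).comp w yL.contDiff.contDiffAt
  exact contDiff_dot h1 h2

theorem fderiv_th (hG : IsPath G) (l' : W5) {w : W8} (hw : w ∈ Om) (l : W8) :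
    fderiv ℝ (th G l') w l =
      dot (dxi G (pr w) (pr l) l') (nv w.2.2) + dot (xi G (pr w) l') (dnv w.2.2 l.2.2) := by
  have h1 : HasFDerivAt (fun w : W8 => xi G (pr w) l')
      ((fderiv ℝ (fun p => xi G p l') (pr w)).comp prL) w :=
    (((contDiff_xi hG l').differentiable (by simp)) (prL w)).hasFDerivAt.comp w prL.hasFDerivAt
  have h2 : HasFDerivAt (fun w : W8 => nv w.2.2) ((fderiv ℝ nv w.2.2).comp yL) w :=
    ((contDiffAt_nv (y := yL w) hw).differentiableAt (by simp)).hasFDerivAt.comp w yL.hasFDerivAt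
  have h := fderiv_dot h1.differentiableAt h2.differentiableAt l
  rw [h1.fderiv, h2.fderiv, ContinuousLinearMap.comp_apply, ContinuousLinearMap.comp_apply,
    yL_apply, fderiv_nv hw] at h
  exact h

theorem contDiff_RR (hG : IsPath G) : ContDiff ℝ ∞ (RR G) := by
  have h1 : ContDiff ℝ ∞ fun w : W8 => G (pr w) := hG.smooth.comp prL.contDiff
  exact imvL.contDiff.comp ((h1.mul (imL.contDiff.comp yL.contDiff)).mul (stL.contDiff.comp h1))

theorem th_der {q d : ℍ} (h : Quaternion.normSq q = 1) (hd : (star q * d).re = 0) (y a : R3) :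
    imv (q * im y * star d + (q * im a + d * im y) * star q) =
      rot q (a + (2 : ℝ) • cross (imv (star q * d)) y) := by
  have e1 : star q * d = im (imv (star q * d)) := by
    ext
    · exact hd
    all_goals rfl
  generalize imv (star q * d) = x at e1
  have e2 : d = q * im x := by
    rw [← e1, ← mul_assoc, Quaternion.self_mul_star, h, Quaternion.coe_one, one_mul]
  have e3 : star (im x) = -im x := by ext <;> simp
  have e4 : im (a + (2 : ℝ) • cross x y) = im a + (im x * im y - im y * im x) := by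
    ext <;> simp [cross] <;> ring
  rw [rot, e4, e2, star_mul, e3]
  congr 1
  noncomm_ring

theorem fderiv_RR (hG : IsPath G) (w l : W8) : fderiv ℝ (RR G) w l =
    rot (G (pr w)) (l.2.2 + (2 : ℝ) • cross (xi G (pr w) (pr l)) w.2.2) := by
  have h1 : HasFDerivAt (fun w : W8 => G (pr w)) ((fderiv ℝ G (pr w)).comp prL) w :=
    ((hG.smooth.differentiable (by simp)) (prL w)).hasFDerivAt.comp w prL.hasFDerivAt
  have h2 : HasFDerivAt (fun w : W8 => im w.2.2) (imL.comp yL) w := (imL.comp yL).hasFDerivAt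
  have h3 : HasFDerivAt (fun w : W8 => star (G (pr w)))
      (stL.comp ((fderiv ℝ G (pr w)).comp prL)) w := stL.hasFDerivAt.comp w h1
  have h4 : HasFDerivAt (RR G) _ w := imvL.hasFDerivAt.comp w ((h1.mul' h2).mul' h3)
  rw [h4.fderiv]
  refine Eq.trans ?_ (th_der (hG.unit (pr w)) (xi_re hG (pr w) (pr l)) w.2.2 l.2.2)
  simp only [ContinuousLinearMap.comp_apply, ContinuousLinearMap.add_apply,
    ContinuousLinearMap.smul_apply, smul_eq_mul, op_smul_eq_mul, imvL_apply, imL_apply, stL_apply,
    prL_apply, yL_apply, Pi.mul_apply]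

theorem contDiff_UU (hG : IsPath G) : ContDiff ℝ ∞ (UU G) := by
  have h1 : ContDiff ℝ ∞ fun w : W8 => star (G (pr w)) :=
    stL.contDiff.comp (hG.smooth.comp prL.contDiff)
  have h2 : ContDiff ℝ ∞ fun w : W8 => rot (star (G (pr w))) w.2.2 :=
    imvL.contDiff.comp ((h1.mul (imL.contDiff.comp yL.contDiff)).mul (stL.contDiff.comp h1))
  exact contDiff_fst.prodMk (uL.contDiff.prodMk h2)

end

end Vale.Agent.P265.S
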